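import Vale.Agent.P254.SP.H674.Num1

/-!
P254, (SP) line, block SP-NUM (helper674): certified numerics of the Gaussian hazard, part 2:
exact integer evaluation of the partial sums and the node check.
-/

set_option autoImplicit false

namespace Vale.Agent.P254.SP.H674

open Real Set
open Vale.Agent.P254.H876 (ph Ph lam m)
open Vale.Agent.P254.H156 (lm nu t r r1 r2 Qs)

/-- `(u, S, D)` with `D = q ^ n n!`, `u = (-p) ^ n`, `S / D = eS n (p / q)` -/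
def eI (p q : ℕ) : ℕ → ℤ × ℤ × ℕ
  | 0 => (1, 0, 1)
  | n + 1 =>
    match eI p q n with
    | (u, S, D) => (u * (-(p : ℤ)), (S + u) * ((q * (n + 1) : ℕ) : ℤ), D * (q * (n + 1)))

theorem eI_spec (p q : ℕ) (hq : 0 < q) (n : ℕ) :
    ((eI p q n).1 : ℤ) = (-(p : ℤ)) ^ n ∧ (eI p q n).2.2 = q ^ n * n.factorial ∧
      eS n ((p : ℝ) / q) = ((eI p q n).2.1 : ℝ) / ((eI p q n).2.2 : ℝ) := by
  have hq' : (q : ℝ) ≠ 0 := by exact_mod_cast hq.ne'
  induction n with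
  | zero => simp [eI, eS]
  | succ n ih =>
    obtain ⟨h1, h2, h3⟩ := ih
    have e : eI p q (n + 1) = ((eI p q n).1 * (-(p : ℤ)),
      ((eI p q n).2.1 + (eI p q n).1) * ((q * (n + 1) : ℕ) : ℤ),
      (eI p q n).2.2 * (q * (n + 1))) := rfl
    refine ⟨?_, ?_, ?_⟩
    · rw [e]
      simp only [h1, pow_succ]
    · rw [e]
      simp only [h2, Nat.factorial_succ, pow_succ]
      ring
    · rw [eS_succ, h3, e]
      have h4 : ((eI p q n).2.2 : ℝ) = (q : ℝ) ^ n * (n.factorial : ℝ) := by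
        rw [h2]; push_cast; ring
      have h5 : (((eI p q n).1 : ℤ) : ℝ) = (-(p : ℝ)) ^ n := by
        rw [h1]; push_cast; ring
      have hf : (n.factorial : ℝ) ≠ 0 := by exact_mod_cast Nat.factorial_ne_zero n
      have hqn : (q : ℝ) ^ n ≠ 0 := pow_ne_zero _ hq'
      have hn : ((n : ℝ) + 1) ≠ 0 := by positivity
      simp only
      push_cast
      rw [h5, h4]
      have e2 : (-((p : ℝ) / q)) ^ n = (-(p : ℝ)) ^ n / (q : ℝ) ^ n := by
        rw [← neg_div, div_pow]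
      rw [e2]
      field_simp

theorem eI_pos (p q : ℕ) (hq : 0 < q) (n : ℕ) : (0 : ℝ) < ((eI p q n).2.2 : ℝ) := by
  rw [(eI_spec p q hq n).2.1]
  have := Nat.factorial_pos n
  positivity

/-- `(u, S, D, W)`: `D = q ^ n n!`, `W = (2 n - 1)!!`, `S / (D W) = ∑_{k<n} (-p/q)^k/(k! (2k+1))` -/
def tI (p q : ℕ) : ℕ → ℤ × ℤ × ℕ × ℕ
  | 0 => (1, 0, 1, 1)
  | n + 1 =>
    match tI p q n with
    | (u, S, D, W) => (u * (-(p : ℤ)), (S * ((2 * n + 1 : ℕ) : ℤ) + u * (W : ℤ)) * ((q * (n + 1) : ℕ) : ℤ),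
        D * (q * (n + 1)), W * (2 * n + 1))

/-- the sum -/
noncomputable def uS (n : ℕ) (y : ℝ) : ℝ :=
  ∑ k ∈ Finset.range n, (-y) ^ k / ((k.factorial : ℝ) * (2 * k + 1))

theorem uS_succ (n : ℕ) (y : ℝ) :
    uS (n + 1) y = uS n y + (-y) ^ n / ((n.factorial : ℝ) * (2 * n + 1)) := by
  unfold uS
  rw [Finset.sum_range_succ]

theorem tS_eq (n : ℕ) (x : ℝ) : tS n x = x * uS n (x ^ 2 / 2) := by
  unfold tS uS
  rw [Finset.mul_sum]
  refine Finset.sum_congr rfl fun k _ => ?_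
  have h2 : ((k.factorial : ℕ) : ℝ) ≠ 0 := by exact_mod_cast Nat.factorial_ne_zero k
  have h3 : (2 * (k : ℝ) + 1) ≠ 0 := by positivity
  have h4 : (2 : ℝ) ^ k ≠ 0 := by positivity
  have h5 : (-(x ^ 2 / 2)) ^ k = (-1 : ℝ) ^ k * x ^ (2 * k) / 2 ^ k := by
    rw [neg_eq_neg_one_mul, mul_pow, div_pow, ← pow_mul]
    ring
  rw [h5]
  field_simp
  ring

theorem tI_spec (p q : ℕ) (hq : 0 < q) (n : ℕ) :
    ((tI p q n).1 : ℤ) = (-(p : ℤ)) ^ n ∧ (tI p q n).2.2.1 = q ^ n * n.factorial ∧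
      0 < (tI p q n).2.2.2 ∧
      uS n ((p : ℝ) / q) = ((tI p q n).2.1 : ℝ) / (((tI p q n).2.2.1 : ℝ) * ((tI p q n).2.2.2 : ℝ)) := by
  have hq' : (q : ℝ) ≠ 0 := by exact_mod_cast hq.ne'
  induction n with
  | zero => simp [tI, uS]
  | succ n ih =>
    obtain ⟨h1, h2, hw, h3⟩ := ih
    have e : tI p q (n + 1) = ((tI p q n).1 * (-(p : ℤ)),
      ((tI p q n).2.1 * ((2 * n + 1 : ℕ) : ℤ) + (tI p q n).1 * ((tI p q n).2.2.2 : ℤ))
        * ((q * (n + 1) : ℕ) : ℤ),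
      (tI p q n).2.2.1 * (q * (n + 1)), (tI p q n).2.2.2 * (2 * n + 1)) := rfl
    refine ⟨?_, ?_, ?_, ?_⟩
    · rw [e]
      simp only [h1, pow_succ]
    · rw [e]
      simp only [h2, Nat.factorial_succ, pow_succ]
      ring
    · rw [e]
      simp only
      positivity
    · rw [uS_succ, h3, e]
      have h4 : ((tI p q n).2.2.1 : ℝ) = (q : ℝ) ^ n * (n.factorial : ℝ) := by
        rw [h2]; push_cast; ring
      have h5 : (((tI p q n).1 : ℤ) : ℝ) = (-(p : ℝ)) ^ n := by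
        rw [h1]; push_cast; ring
      have hf : (n.factorial : ℝ) ≠ 0 := by exact_mod_cast Nat.factorial_ne_zero n
      have hqn : (q : ℝ) ^ n ≠ 0 := pow_ne_zero _ hq'
      have hn : ((n : ℝ) + 1) ≠ 0 := by positivity
      have hW : ((tI p q n).2.2.2 : ℝ) ≠ 0 := by exact_mod_cast hw.ne'
      have h6 : (2 * (n : ℝ) + 1) ≠ 0 := by positivity
      simp only
      push_cast
      rw [h5, h4]
      have e2 : (-((p : ℝ) / q)) ^ n = (-(p : ℝ)) ^ n / (q : ℝ) ^ n := by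
        rw [← neg_div, div_pow]
      rw [e2]
      field_simp

/-! ### checks on natural numbers; scale `2 ^ 96` -/

/-- lower bound `A / 2 ^ 96 ≤ exp (-(p / q))` -/
def chkE0 (p q n A : ℕ) : Bool :=
  match eI p q (2 * n) with
  | (_, S, D) => decide (((A * D : ℕ) : ℤ) ≤ S * (2 ^ 96 : ℕ))

/-- upper bound `exp (-(p / q)) ≤ A / 2 ^ 96` -/
def chkE1 (p q n A : ℕ) : Bool :=
  match eI p q (2 * n + 1) with
  | (_, S, D) => decide (S * (2 ^ 96 : ℕ) ≤ ((A * D : ℕ) : ℤ))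

theorem chkE0_spec {p q n A : ℕ} (hq : 0 < q) (h : chkE0 p q n A = true) :
    (A : ℝ) / 2 ^ 96 ≤ Real.exp (-((p : ℝ) / q)) := by
  have h1 := exp_ge (y := (p : ℝ) / q) (by positivity) n
  refine le_trans ?_ h1
  have h2 := (eI_spec p q hq (2 * n)).2.2
  have h3 := eI_pos p q hq (2 * n)
  have h4 : (((A * (eI p q (2 * n)).2.2 : ℕ)) : ℤ) ≤ (eI p q (2 * n)).2.1 * (2 ^ 96 : ℕ) := by
    have := of_decide_eq_true h
    exact this
  have h5 : (A : ℝ) * ((eI p q (2 * n)).2.2 : ℝ) ≤ ((eI p q (2 * n)).2.1 : ℝ) * 2 ^ 96 := by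
    exact_mod_cast h4
  rw [h2, le_div_iff₀ h3, div_mul_eq_mul_div, div_le_iff₀ (by positivity)]
  exact h5

theorem chkE1_spec {p q n A : ℕ} (hq : 0 < q) (h : chkE1 p q n A = true) :
    Real.exp (-((p : ℝ) / q)) ≤ (A : ℝ) / 2 ^ 96 := by
  have h1 := exp_le (y := (p : ℝ) / q) (by positivity) n
  refine le_trans h1 ?_
  have h2 := (eI_spec p q hq (2 * n + 1)).2.2
  have h3 := eI_pos p q hq (2 * n + 1)
  have h4 : (eI p q (2 * n + 1)).2.1 * (2 ^ 96 : ℕ) ≤ (((A * (eI p q (2 * n + 1)).2.2 : ℕ)) : ℤ) := by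
    have := of_decide_eq_true h
    exact this
  have h5 : ((eI p q (2 * n + 1)).2.1 : ℝ) * 2 ^ 96 ≤ (A : ℝ) * ((eI p q (2 * n + 1)).2.2 : ℝ) := by
    exact_mod_cast h4
  rw [h2, div_le_iff₀ h3, div_mul_eq_mul_div, le_div_iff₀ (by positivity)]
  exact h5

/-- lower bound `B / 2 ^ 96 ≤ Ph (K / 16) - Ph 0` -/
def chkP0 (K n B : ℕ) : Bool :=
  match tI (K * K) 512 (2 * n) with
  | (_, S, D, W) => decide (((B * (16 * (D * W)) : ℕ) : ℤ) ≤ S * (2 ^ 96 * K : ℕ))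

def chkP1 (K n B : ℕ) : Bool :=
  match tI (K * K) 512 (2 * n + 1) with
  | (_, S, D, W) => decide (S * (2 ^ 96 * K : ℕ) ≤ ((B * (16 * (D * W)) : ℕ) : ℤ))

theorem sqK (K : ℕ) : ((K : ℝ) / 16) ^ 2 / 2 = ((K * K : ℕ) : ℝ) / ((512 : ℕ) : ℝ) := by
  push_cast
  ring

theorem chkP0_spec {K n B : ℕ} (h : chkP0 K n B = true) :
    (B : ℝ) / 2 ^ 96 ≤ Ph ((K : ℝ) / 16) - Ph 0 := by
  have h1 := Ph_ge (x := (K : ℝ) / 16) (by positivity) n
  refine le_trans ?_ h1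
  rw [tS_eq, sqK]
  obtain ⟨-, h0, hw, h2⟩ := tI_spec (K * K) 512 (by norm_num) (2 * n)
  have hD : (0 : ℝ) < ((tI (K * K) 512 (2 * n)).2.2.1 : ℝ) := by
    rw [h0]
    have := Nat.factorial_pos (2 * n)
    positivity
  have hW : (0 : ℝ) < ((tI (K * K) 512 (2 * n)).2.2.2 : ℝ) := by exact_mod_cast hw
  rw [h2]
  have h4 : ((B * (16 * ((tI (K * K) 512 (2 * n)).2.2.1 * (tI (K * K) 512 (2 * n)).2.2.2)) : ℕ) : ℤ)
      ≤ (tI (K * K) 512 (2 * n)).2.1 * (2 ^ 96 * K : ℕ) := of_decide_eq_true h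
  have h5 : (B : ℝ) * (16 * (((tI (K * K) 512 (2 * n)).2.2.1 : ℝ)
      * ((tI (K * K) 512 (2 * n)).2.2.2 : ℝ)))
      ≤ ((tI (K * K) 512 (2 * n)).2.1 : ℝ) * (2 ^ 96 * (K : ℝ)) := by exact_mod_cast h4
  rw [div_le_iff₀ (by positivity), mul_div_assoc', div_mul_eq_mul_div, le_div_iff₀ (by positivity)]
  nlinarith [h5]

theorem chkP1_spec {K n B : ℕ} (h : chkP1 K n B = true) :
    Ph ((K : ℝ) / 16) - Ph 0 ≤ (B : ℝ) / 2 ^ 96 := by
  have h1 := Ph_le (x := (K : ℝ) / 16) (by positivity) n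
  refine le_trans h1 ?_
  rw [tS_eq, sqK]
  obtain ⟨-, h0, hw, h2⟩ := tI_spec (K * K) 512 (by norm_num) (2 * n + 1)
  have hD : (0 : ℝ) < ((tI (K * K) 512 (2 * n + 1)).2.2.1 : ℝ) := by
    rw [h0]
    have := Nat.factorial_pos (2 * n + 1)
    positivity
  have hW : (0 : ℝ) < ((tI (K * K) 512 (2 * n + 1)).2.2.2 : ℝ) := by exact_mod_cast hw
  rw [h2]
  have h4 : (tI (K * K) 512 (2 * n + 1)).2.1 * (2 ^ 96 * K : ℕ) ≤
      ((B * (16 * ((tI (K * K) 512 (2 * n + 1)).2.2.1 * (tI (K * K) 512 (2 * n + 1)).2.2.2)) : ℕ) : ℤ)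
      := of_decide_eq_true h
  have h5 : ((tI (K * K) 512 (2 * n + 1)).2.1 : ℝ) * (2 ^ 96 * (K : ℝ)) ≤
      (B : ℝ) * (16 * (((tI (K * K) 512 (2 * n + 1)).2.2.1 : ℝ)
      * ((tI (K * K) 512 (2 * n + 1)).2.2.2 : ℝ))) := by exact_mod_cast h4
  rw [le_div_iff₀ (by positivity), mul_div_assoc', div_mul_eq_mul_div, div_le_iff₀ (by positivity)]
  nlinarith [h5]

end Vale.Agent.P254.SP.H674
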