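import Vale.Agent.P254.SP.H674.Q40F
import Vale.Agent.P254.SP.H674.Num2
import Vale.Agent.P254.SP.H151.Fam
import Vale.Agent.P254.SP.H127.Forms0
import Vale.Agent.P254.H156.F1inst

/-!
P254, (SP_0) line, P4 (helper674): the last range: `PW0` for every `q ≥ 40`.
-/

set_option autoImplicit false

namespace Vale.Agent.P254.SP.H674

open Real Set
open Vale.Agent.P254.S Vale.Agent.P254.SP Vale.Agent.P254.SP38 Vale.Agent.P254.SP151
open Vale.Agent.P254.H156 (F1inst)

/-! ### bridge between `H156` and `H721` -/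

theorem br_r (g : ℝ) : H156.r g = H721.r g := rfl
theorem br_L (g : ℝ) : H156.lm g = H721.L g := rfl
theorem br_nu (g : ℝ) : H156.nu g = H721.mm g := rfl
theorem br_r1 (g : ℝ) : H156.r1 g = H721.r1 g := by
  rw [H721.r1_eq]
  rfl
theorem br_r2 (g : ℝ) : H156.r2 g = H721.r2 g := by
  rw [H721.r2_eq, H721.vv_eq]
  have e1 : H156.r2 g = H721.r g * (1 - g * H721.mm g) - H721.mm g := rfl
  have h4 : H721.L g = g + H721.mm g := by
    have := H721.mm_eq g
    linarith
  rw [e1, h4]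
  ring

theorem br_w (g : ℝ) : w0 F1inst g = H721.wf g := by
  show H156.r1 g + H156.r g * H156.r2 g = H721.r1 g + H721.r g * H721.r2 g
  rw [br_r1, br_r2, br_r]

theorem br_th (g : ℝ) : th F1inst g = H721.th g := by
  show H156.r g + H156.r g * H156.r1 g = H721.r g * (1 + H721.r1 g)
  rw [br_r1, br_r]
  ring

theorem br_th1 (g : ℝ) : th1 F1inst g = H721.wf g + H721.r1 g ^ 2 := by
  show H156.r1 g + (H156.r1 g ^ 2 + H156.r g * H156.r2 g)
    = H721.r1 g + H721.r g * H721.r2 g + H721.r1 g ^ 2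
  rw [br_r1, br_r2, br_r]
  ring

/-! ### `log 12` -/

theorem log_twelve : Real.log 12 ≤ 2485 / 1000 := by
  rw [Real.log_le_iff_le_exp (by norm_num)]
  have h := chkE1_spec (p := 497) (q := 200) (n := 10) (A := 2 ^ 96 / 12)
    (by norm_num) (by decide +kernel)
  have e : ((497 : ℕ) : ℝ) / ((200 : ℕ) : ℝ) = 2485 / 1000 := by norm_num
  rw [e, Real.exp_neg] at h
  have h2 : (((2 ^ 96 / 12 : ℕ) : ℝ)) / 2 ^ 96 ≤ 1 / 12 := by norm_num
  have h3 := h.trans h2
  rw [inv_le_comm₀ (Real.exp_pos _) (by norm_num)] at h3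
  have h4 : ((1 : ℝ) / 12)⁻¹ = 12 := by norm_num
  rw [h4] at h3
  exact h3

/-- the numbers of the last range -/
noncomputable def m40 : SP127.Mult0 3 where
  c := 12
  L1 := 12 * (-83 / 100)
  L2 := 0
  L3 := 0
  L4 := 12 * (-48 / 100)
  L5 := 0
  L6 := 12 * (61 / 100)
  L7 := 0
  T0 := 0
  Mt := 12 * (43 / 100)
  Mr := 0
  B4 := 12 * (1 / 2)
  γ := ![fun _ => 0, fun _ => 0, fun g => 12 * Real.sqrt (F1inst.r' g)]

/-- **the last range** -/
theorem pw0_40 {q : ℝ} (hq : 40 ≤ q) :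
    SP127.PW0 F1inst q (2 / 25) 10 (1 / 1000) (wfam F1inst) bfam m40 where
  c_pos := by norm_num [m40]
  L6_nonneg := by norm_num [m40]
  ker := by
    intro x y
    have hp : 0 < F1inst.r' x := F1inst.r'_pos x
    have hs : Real.sqrt (F1inst.r' x) ≠ 0 := (Real.sqrt_pos.2 hp).ne'
    have e : 12 * Real.sqrt (F1inst.r' x) * (ktot F1inst (43 / 100) (1 / 2) x y
        / Real.sqrt (F1inst.r' x)) = 12 * ktot F1inst (43 / 100) (1 / 2) x y := by
      field_simp
    have e2 : (∑ i, m40.γ i x * wfam F1inst i x y) = 12 * Real.sqrt (F1inst.r' x)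
        * (ktot F1inst (43 / 100) (1 / 2) x y / Real.sqrt (F1inst.r' x)) := by
      rw [Fin.sum_univ_three]
      simp [m40, wfam]
    rw [e2, e]
    unfold ktot m40
    ring
  formA := by
    intro g f al k1
    have h := formA0_nonneg (S := F1inst.r' g) (c := 12) (ν := 2 / 25) (b₁ := 10) (β := 1 / 2)
      (l6 := 61 / 100) (f := f) (al := al) (k1 := k1) (by norm_num) (F1inst.r'_pos g).le
      (le_of_lt (H156.r1_lt_half g)) (by norm_num) (by norm_num) (by norm_num)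
    unfold SP127.FormA0 m40
    linarith
  formB := by
    intro g x y ze ka
    have hq0 : 0 < q := by linarith
    have hP : 0 ≤ PH (43 / 100) (1 / 2) (2 / 25) 5 (219 / 1000) (-83 / 100) (-48 / 100)
        (2485 / 1000) 12 (1 / 1000) q g (H721.wf g) (H721.th g) (H721.wf g + H721.r1 g ^ 2)
        (H721.r1 g) (H721.L g) := PH_nonneg hq (fPH_nonneg g) (fA1_nonneg g)
    have h := formB0_core (l6 := 61 / 100) (γ := Real.sqrt (H721.r1 g)) (x := x) (y := y)
      (ze := ze) (ka := ka 2) hq0 (by norm_num) (by norm_num) (by norm_num) (by norm_num)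
      (Real.sq_sqrt (H721.r1_pos g).le) hP
    have e1 : F1inst.r' g = H721.r1 g := br_r1 g
    have e2 : F1inst.L g = H721.L g := rfl
    have hlog := log_twelve
    have hmin : min 1 ((q - 1) ^ 2) ≤ (1 : ℝ) := min_le_left _ _
    have hx : 0 ≤ x ^ 2 := sq_nonneg x
    have i1 : 12 * Real.log 12 * x ^ 2 ≤ 12 * (2485 / 1000) * x ^ 2 := by nlinarith
    have i2 : 12 * (1 / 1000) * (y ^ 2 + min 1 ((q - 1) ^ 2) * x ^ 2)
        ≤ 12 * (1 / 1000) * (y ^ 2 + x ^ 2) := by nlinarith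
    have i3 : (∑ i, m40.γ i g * ka i) = 12 * Real.sqrt (H721.r1 g) * ka 2 := by
      rw [Fin.sum_univ_three]
      simp [m40, br_r1]
    have i4 : 12 * 5 * q⁻¹ * ka 2 ^ 2 ≤ ∑ i, (12 : ℝ) * bfam i * q⁻¹ * ka i ^ 2 := by
      rw [Fin.sum_univ_three]
      simp only [bfam, Matrix.cons_val_zero, Matrix.cons_val_one, Matrix.cons_val]
      have j1 : 0 ≤ 12 * 30 * q⁻¹ * ka 0 ^ 2 := by positivity
      have j2 : 0 ≤ 12 * 4 * q⁻¹ * ka 1 ^ 2 := by positivity
      linarith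
    have hh := mul_le_mul_of_nonneg_left h (by norm_num : (0 : ℝ) ≤ 12)
    rw [mul_zero] at hh
    unfold SP127.FormB0
    rw [i3, br_w, br_th, br_th1, e1, e2]
    show (0 : ℝ) ≤ -(12 * y ^ 2)
      + 12 * ((q - 1) * (H721.wf g * x ^ 2) + H721.wf g * x * ze + H721.th g * x * y)
      + (12 - 12 * Real.log 12) * x ^ 2 - H721.L g ^ 2 * x ^ 2
      + 12 * (-83 / 100) * (x * y) + 0 * (g * x * y - y ^ 2) + 0 * (x * ze)
      + 12 * (-48 / 100) * (g * x ^ 2) - 0 * q * x ^ 2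
      + 0 * (g * g * x ^ 2 - g * x * y - 1 * x * (q * x + ze))
      + 12 * (43 / 100) * (H721.th g * g * x ^ 2 - H721.th g * x * y
        - (H721.wf g + H721.r1 g ^ 2) * x * (q * x + ze))
      + 0 * (F1inst.r g * g * x ^ 2 - F1inst.r g * x * y - H721.r1 g * x * (q * x + ze))
      - 12 * (1 / 2) * (H721.r1 g ^ 2 * x * (q * x + ze))
      + 2 * (12 * (61 / 100)) * y ^ 2 + x * (12 * Real.sqrt (H721.r1 g) * ka 2)
      + 12 * (2 / 25) * q⁻¹ * ze ^ 2 + ∑ i, (12 : ℝ) * bfam i * q⁻¹ * ka i ^ 2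
      - 12 * (1 / 1000) * (y ^ 2 + min 1 ((q - 1) ^ 2) * x ^ 2)
    linarith

end Vale.Agent.P254.SP.H674
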