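import Vale.Agent.P254.H156.One

/-!
P254, (SP) line, block SP-NUM (helper674): certified numerics of the Gaussian hazard, part 1:
alternating sums for `exp (-y)` and for the Gaussian integral; the node lemma.
-/

set_option autoImplicit false

noncomputable section

namespace Vale.Agent.P254.SP.H674

open Real Set MeasureTheory Filter Topology
open Vale.Agent.P254.H876 (ph Ph lam m)
open Vale.Agent.P254.H156 (lm nu t r r1 r2 Qs)

/-! ### alternating sums -/

/-- partial sums of `exp (-y)` -/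
def eS (n : ℕ) (y : ℝ) : ℝ := ∑ k ∈ Finset.range n, (-y) ^ k / (k.factorial : ℝ)

theorem eS_succ (n : ℕ) (y : ℝ) : eS (n + 1) y = eS n y + (-y) ^ n / (n.factorial : ℝ) := by
  unfold eS
  rw [Finset.sum_range_succ]

theorem hasDerivAt_eS (n : ℕ) (y : ℝ) : HasDerivAt (eS (n + 1)) (-eS n y) y := by
  induction n with
  | zero =>
    have e : eS 1 = fun _ => (1 : ℝ) := by
      funext y
      simp [eS]
    rw [e]
    simpa [eS] using hasDerivAt_const y (1 : ℝ)
  | succ n ih =>
    have e : eS (n + 2) = fun y => eS (n + 1) y + (-y) ^ (n + 1) / ((n + 1).factorial : ℝ) := by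
      funext y
      exact eS_succ (n + 1) y
    rw [e]
    have h1 : HasDerivAt (fun y : ℝ => (-y) ^ (n + 1) / ((n + 1).factorial : ℝ))
        (((n + 1 : ℕ) : ℝ) * (-y) ^ n * (-1) / ((n + 1).factorial : ℝ)) y := by
      have h := ((hasDerivAt_neg' y).pow (n + 1)).div_const ((n + 1).factorial : ℝ)
      simpa using h
    refine (ih.add h1).congr_deriv ?_
    rw [eS_succ n y, Nat.factorial_succ]
    have h2 : ((n.factorial : ℕ) : ℝ) ≠ 0 := by exact_mod_cast Nat.factorial_ne_zero n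
    have h3 : ((n + 1 : ℕ) : ℝ) ≠ 0 := by exact_mod_cast Nat.succ_ne_zero n
    push_cast at h3 ⊢
    field_simp
    ring

theorem eS_alt (n : ℕ) : ∀ y, 0 ≤ y → 0 ≤ (-1 : ℝ) ^ n * (Real.exp (-y) - eS n y) := by
  induction n with
  | zero =>
    intro y _
    simp only [pow_zero, one_mul]
    have : eS 0 y = 0 := by simp [eS]
    rw [this, sub_zero]
    exact (Real.exp_pos _).le
  | succ n ih =>
    intro y hy
    have hd : ∀ z : ℝ, HasDerivAt (fun z => (-1 : ℝ) ^ (n + 1) * (Real.exp (-z) - eS (n + 1) z))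
        ((-1 : ℝ) ^ n * (Real.exp (-z) - eS n z)) z := by
      intro z
      have h1 := ((hasDerivAt_neg' z).exp.sub (hasDerivAt_eS n z)).const_mul ((-1 : ℝ) ^ (n + 1))
      refine h1.congr_deriv ?_
      rw [pow_succ]
      ring
    have hm : MonotoneOn (fun z => (-1 : ℝ) ^ (n + 1) * (Real.exp (-z) - eS (n + 1) z))
        (Ici 0) := by
      refine monotoneOn_of_deriv_nonneg (convex_Ici 0) ?_ ?_ ?_
      · exact fun z _ => (hd z).continuousAt.continuousWithinAt
      · exact fun z _ => (hd z).differentiableAt.differentiableWithinAt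
      · intro z hz
        rw [interior_Ici] at hz
        rw [(hd z).deriv]
        exact ih z (le_of_lt hz)
    have h0 : (fun z => (-1 : ℝ) ^ (n + 1) * (Real.exp (-z) - eS (n + 1) z)) 0 = 0 := by
      have : eS (n + 1) 0 = 1 := by
        unfold eS
        rw [Finset.sum_range_succ']
        simp
      simp [this]
    have h2 := hm (Set.mem_Ici.2 le_rfl) (Set.mem_Ici.2 hy) hy
    rw [h0] at h2
    exact h2

theorem exp_ge {y : ℝ} (hy : 0 ≤ y) (k : ℕ) : eS (2 * k) y ≤ Real.exp (-y) := by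
  have h := eS_alt (2 * k) y hy
  rw [pow_mul] at h
  norm_num at h
  exact h

theorem exp_le {y : ℝ} (hy : 0 ≤ y) (k : ℕ) : Real.exp (-y) ≤ eS (2 * k + 1) y := by
  have h := eS_alt (2 * k + 1) y hy
  rw [pow_succ, pow_mul] at h
  norm_num at h
  exact h

/-- partial sums of `∫₀ˣ exp (-s²/2) ds` -/
def tS (n : ℕ) (x : ℝ) : ℝ :=
  ∑ k ∈ Finset.range n, (-1 : ℝ) ^ k * x ^ (2 * k + 1) / (2 ^ k * (k.factorial : ℝ) * (2 * k + 1))

theorem tS_succ (n : ℕ) (x : ℝ) : tS (n + 1) x
    = tS n x + (-1 : ℝ) ^ n * x ^ (2 * n + 1) / (2 ^ n * (n.factorial : ℝ) * (2 * n + 1)) := by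
  unfold tS
  rw [Finset.sum_range_succ]

theorem hasDerivAt_tS (n : ℕ) (x : ℝ) : HasDerivAt (tS n) (eS n (x ^ 2 / 2)) x := by
  induction n with
  | zero =>
    have e : tS 0 = fun _ => (0 : ℝ) := by
      funext y
      simp [tS]
    rw [e]
    simpa [eS] using hasDerivAt_const x (0 : ℝ)
  | succ n ih =>
    have e : tS (n + 1) = fun x => tS n x
        + (-1 : ℝ) ^ n * x ^ (2 * n + 1) / (2 ^ n * (n.factorial : ℝ) * (2 * n + 1)) := by
      funext y
      exact tS_succ n y
    rw [e]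
    have h1 := ((hasDerivAt_pow (2 * n + 1) x).const_mul ((-1 : ℝ) ^ n)).div_const
      (2 ^ n * (n.factorial : ℝ) * (2 * n + 1))
    refine (ih.add h1).congr_deriv ?_
    rw [eS_succ]
    have h2 : ((n.factorial : ℕ) : ℝ) ≠ 0 := by exact_mod_cast Nat.factorial_ne_zero n
    have h3 : (2 * (n : ℝ) + 1) ≠ 0 := by positivity
    have h4 : (2 : ℝ) ^ n ≠ 0 := by positivity
    have h5 : (-(x ^ 2 / 2)) ^ n = (-1 : ℝ) ^ n * x ^ (2 * n) / 2 ^ n := by
      rw [neg_eq_neg_one_mul, mul_pow, div_pow, ← pow_mul]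
      ring
    rw [h5]
    simp only [Nat.add_sub_cancel]
    push_cast
    field_simp

theorem Ph_alt (n : ℕ) {x : ℝ} (hx : 0 ≤ x) : 0 ≤ (-1 : ℝ) ^ n * (Ph x - Ph 0 - tS n x) := by
  have hd : ∀ z : ℝ, HasDerivAt (fun z => (-1 : ℝ) ^ n * (Ph z - Ph 0 - tS n z))
      ((-1 : ℝ) ^ n * (ph z - eS n (z ^ 2 / 2))) z := by
    intro z
    exact (((H876.hasDerivAt_Ph z).sub_const (Ph 0)).sub (hasDerivAt_tS n z)).const_mul _
  have hm : MonotoneOn (fun z => (-1 : ℝ) ^ n * (Ph z - Ph 0 - tS n z)) (Ici 0) := by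
    refine monotoneOn_of_deriv_nonneg (convex_Ici 0) ?_ ?_ ?_
    · exact fun z _ => (hd z).continuousAt.continuousWithinAt
    · exact fun z _ => (hd z).differentiableAt.differentiableWithinAt
    · intro z _
      rw [(hd z).deriv]
      have h := eS_alt n (z ^ 2 / 2) (by positivity)
      have e : ph z = Real.exp (-(z ^ 2 / 2)) := by
        unfold H876.ph
        congr 1
        ring
      rw [e]
      exact h
  have h2 := hm (Set.mem_Ici.2 le_rfl) (Set.mem_Ici.2 hx) hx
  have h0 : (fun z => (-1 : ℝ) ^ n * (Ph z - Ph 0 - tS n z)) 0 = 0 := by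
    have : tS n 0 = 0 := by
      unfold tS
      refine Finset.sum_eq_zero fun k _ => ?_
      simp
    simp [this]
  rw [h0] at h2
  exact h2

theorem Ph_ge {x : ℝ} (hx : 0 ≤ x) (k : ℕ) : tS (2 * k) x ≤ Ph x - Ph 0 := by
  have h := Ph_alt (2 * k) hx
  rw [pow_mul] at h
  norm_num at h
  linarith

theorem Ph_le {x : ℝ} (hx : 0 ≤ x) (k : ℕ) : Ph x - Ph 0 ≤ tS (2 * k + 1) x := by
  have h := Ph_alt (2 * k + 1) hx
  rw [pow_succ, pow_mul] at h
  norm_num at h
  linarith

/-- symmetry -/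
theorem Ph_add_neg (x : ℝ) : Ph x + Ph (-x) = √(2 * π) := by
  have hd : ∀ z : ℝ, HasDerivAt (fun z => Ph z + Ph (-z)) 0 z := by
    intro z
    have h1 := (H876.hasDerivAt_Ph (-z)).comp z (hasDerivAt_neg' z)
    refine ((H876.hasDerivAt_Ph z).add h1).congr_deriv ?_
    have : ph (-z) = ph z := by
      unfold H876.ph
      congr 1
      ring
    rw [this]
    ring
  have hc : ∀ z, Ph z + Ph (-z) = Ph x + Ph (-x) := fun z =>
    is_const_of_deriv_eq_zero (f := fun z => Ph z + Ph (-z))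
      (fun z => (hd z).differentiableAt) (fun z => (hd z).deriv) z x
  have hl : Tendsto (fun z => Ph z + Ph (-z)) atTop (𝓝 (√(2 * π) + 0)) :=
    H876.tendsto_Ph_top.add (H876.tendsto_Ph_bot.comp tendsto_neg_atTop_atBot)
  have h2 : Tendsto (fun z => Ph z + Ph (-z)) atTop (𝓝 (Ph x + Ph (-x))) :=
    tendsto_const_nhds.congr fun z => (hc z).symm
  have := tendsto_nhds_unique h2 hl
  rw [this, add_zero]

theorem Ph_zero : Ph 0 = √(2 * π) / 2 := by
  have := Ph_add_neg 0
  rw [neg_zero] at this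
  linarith

/-- `√(π / 2)` -/
theorem sq_bounds : (1.2533141373155 : ℝ) < √(2 * π) / 2 ∧ √(2 * π) / 2 < (1.2533141373156 : ℝ) := by
  have h1 := Real.pi_gt_d20
  have h2 := Real.pi_lt_d20
  constructor
  · have : (2.506628274631 : ℝ) < √(2 * π) := by
      apply Real.lt_sqrt_of_sq_lt
      norm_num at h1 ⊢
      linarith
    linarith
  · have : √(2 * π) < (2.5066282746312 : ℝ) := by
      rw [Real.sqrt_lt' (by norm_num)]
      norm_num at h2 ⊢
      linarith
    linarith

end Vale.Agent.P254.SP.H674
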