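import Vale.Agent.P254.SP.H674.Num2

/-!
P254, (SP) line, block SP-NUM (helper674): certified numerics of the Gaussian hazard, part 3:
the node check.  Scales: `exp`, `Ph` at `2 ^ 96`, `t` at `2 ^ 80`, output `lm`, `r` at `2 ^ 44`.
-/

set_option autoImplicit false

namespace Vale.Agent.P254.SP.H674

open Real Set
open Vale.Agent.P254.H876 (ph Ph lam m)
open Vale.Agent.P254.H156 (lm nu t r r1 r2 Qs)

/-- `2 ^ 96 √(π / 2)` from below and above -/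
def S0 : ℕ := 99297776152657463636876766933
def S1 : ℕ := 99297776152657463637034804253

theorem S_bounds : (S0 : ℝ) / 2 ^ 96 ≤ √(2 * π) / 2 ∧ √(2 * π) / 2 ≤ (S1 : ℝ) / 2 ^ 96 := by
  have h1 := Real.pi_gt_d20
  have h2 := Real.pi_lt_d20
  unfold S0 S1
  constructor
  · have : (2 * ((99297776152657463636876766933 : ℕ) : ℝ) / 2 ^ 96) ≤ √(2 * π) := by
      apply Real.le_sqrt_of_sq_le
      norm_num at h1 ⊢
      linarith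
    linarith
  · have : √(2 * π) ≤ (2 * ((99297776152657463637034804253 : ℕ) : ℝ) / 2 ^ 96) := by
      rw [Real.sqrt_le_left (by positivity)]
      norm_num at h2 ⊢
      linarith
    linarith

/-- enclosure of the two functions at a point -/
structure Nd (x : ℝ) (l0 l1 r0 r1 : ℕ) : Prop where
  l0 : (l0 : ℝ) / 2 ^ 44 ≤ lm x
  l1 : lm x ≤ (l1 : ℝ) / 2 ^ 44
  r0 : (r0 : ℝ) / 2 ^ 44 ≤ r x
  r1 : r x ≤ (r1 : ℝ) / 2 ^ 44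

theorem ph_eq (y : ℝ) : ph y = Real.exp (-(y ^ 2 / 2)) := by
  unfold H876.ph
  congr 1
  ring

/-- `lm` and `t` at `y` -/
theorem lm_at (y : ℝ) : lm y = ph y / (√(2 * π) / 2 - (Ph y - Ph 0)) := by
  unfold H156.lm H876.lam
  have h1 : ph (-y) = ph y := by rw [ph_eq, ph_eq]; congr 1; ring
  have h2 := Ph_add_neg y
  have h3 := Ph_zero
  have h4 : Ph (-y) = √(2 * π) / 2 - (Ph y - Ph 0) := by rw [h3]; linarith
  rw [h1, h4]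

theorem lm_at_neg (y : ℝ) : lm (-y) = ph y / (√(2 * π) / 2 + (Ph y - Ph 0)) := by
  unfold H156.lm H876.lam
  have h3 := Ph_zero
  have h4 : Ph y = √(2 * π) / 2 + (Ph y - Ph 0) := by rw [h3]; ring
  rw [neg_neg, ← h4]

theorem Qs_at (y : ℝ) : Qs y = (√(2 * π) / 2 - (Ph y - Ph 0)) / (2 * (√(2 * π) / 2)) := by
  unfold H156.Qs
  have h2 := Ph_add_neg y
  have h3 := Ph_zero
  have h4 : Ph (-y) = √(2 * π) / 2 - (Ph y - Ph 0) := by rw [h3]; linarith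
  rw [h4]
  congr 1
  ring

theorem Qs_at_neg (y : ℝ) : Qs (-y) = (√(2 * π) / 2 + (Ph y - Ph 0)) / (2 * (√(2 * π) / 2)) := by
  unfold H156.Qs
  have h3 := Ph_zero
  have h4 : Ph y = √(2 * π) / 2 + (Ph y - Ph 0) := by rw [h3]; ring
  rw [neg_neg, ← h4]
  congr 1
  ring

theorem t_ge {x c : ℝ} (h : Qs x ≤ Real.exp (-c)) : c ≤ t x := by
  unfold H156.t
  have := (Real.log_le_iff_le_exp (H156.Qs_pos x)).2 h
  linarith

theorem t_le {x c : ℝ} (h : Real.exp (-c) ≤ Qs x) : t x ≤ c := by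
  unfold H156.t
  have := (Real.le_log_iff_exp_le (H156.Qs_pos x)).2 h
  linarith

/-! ### real arithmetic helpers (scales) -/

theorem hlow {a s B X : ℝ} {l : ℝ} (hl : 0 ≤ l) (hd : 0 < s)
    (h1 : s * 2 ^ 96 ≤ X) (h2 : B ≤ a * 2 ^ 96) (h : l * X ≤ B * 2 ^ 44) :
    l / 2 ^ 44 ≤ a / s := by
  rw [div_le_div_iff₀ (by positivity) hd]
  have h3 : l * (s * 2 ^ 96) ≤ l * X := mul_le_mul_of_nonneg_left h1 hl
  have h4 : B * 2 ^ 44 ≤ a * 2 ^ 96 * 2 ^ 44 := mul_le_mul_of_nonneg_right h2 (by positivity)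
  have h5 : l * s * 2 ^ 96 ≤ a * 2 ^ 44 * 2 ^ 96 := by
    have e1 : l * s * 2 ^ 96 = l * (s * 2 ^ 96) := by ring
    have e2 : a * 2 ^ 44 * 2 ^ 96 = a * 2 ^ 96 * 2 ^ 44 := by ring
    rw [e1, e2]
    exact (h3.trans h).trans h4
  exact le_of_mul_le_mul_right h5 (by positivity)

theorem hupp {a s B X : ℝ} {l : ℝ} (hl : 0 ≤ l) (hd : 0 < s)
    (h1 : X ≤ s * 2 ^ 96) (h2 : a * 2 ^ 96 ≤ B) (h : B * 2 ^ 44 ≤ l * X) :
    a / s ≤ l / 2 ^ 44 := by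
  rw [div_le_div_iff₀ hd (by positivity)]
  have h3 : l * X ≤ l * (s * 2 ^ 96) := mul_le_mul_of_nonneg_left h1 hl
  have h4 : a * 2 ^ 96 * 2 ^ 44 ≤ B * 2 ^ 44 := mul_le_mul_of_nonneg_right h2 (by positivity)
  have h5 : a * 2 ^ 44 * 2 ^ 96 ≤ l * s * 2 ^ 96 := by
    have e1 : l * s * 2 ^ 96 = l * (s * 2 ^ 96) := by ring
    have e2 : a * 2 ^ 44 * 2 ^ 96 = a * 2 ^ 96 * 2 ^ 44 := by ring
    rw [e1, e2]
    exact (h4.trans h).trans h3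
  exact le_of_mul_le_mul_right h5 (by positivity)

/-- `Q ≤ (X 2^95 / Y + 1)/2^96` -/
theorem qupp {w s : ℝ} {X Y : ℕ} (hs : 0 < s) (hY : 0 < Y) (h : w * (Y : ℝ) ≤ s * (X : ℝ)) :
    w / (2 * s) ≤ ((X * 2 ^ 95 / Y + 1 : ℕ) : ℝ) / 2 ^ 96 := by
  have hY' : (0 : ℝ) < (Y : ℝ) := by exact_mod_cast hY
  have h1 : (X : ℝ) * 2 ^ 95 / (Y : ℝ) ≤ ((X * 2 ^ 95 / Y + 1 : ℕ) : ℝ) := by
    rw [div_le_iff₀ hY']
    have h2 : X * 2 ^ 95 ≤ (X * 2 ^ 95 / Y + 1) * Y := by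
      rw [mul_comm (X * 2 ^ 95 / Y + 1)]
      exact (Nat.lt_mul_div_succ (X * 2 ^ 95) hY).le
    exact_mod_cast h2
  refine le_trans ?_ (div_le_div_of_nonneg_right h1 (by positivity))
  rw [div_div, div_le_div_iff₀ (by positivity) (by positivity)]
  have e1 : w * ((Y : ℝ) * 2 ^ 96) = (w * Y) * 2 ^ 96 := by ring
  have e2 : (X : ℝ) * 2 ^ 95 * (2 * s) = (s * X) * 2 ^ 96 := by ring
  rw [e1, e2]
  exact mul_le_mul_of_nonneg_right h (by positivity)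

theorem qlow {w s : ℝ} {X Y : ℕ} (hs : 0 < s) (hY : 0 < Y) (h : s * (X : ℝ) ≤ w * (Y : ℝ)) :
    ((X * 2 ^ 95 / Y : ℕ) : ℝ) / 2 ^ 96 ≤ w / (2 * s) := by
  have hY' : (0 : ℝ) < (Y : ℝ) := by exact_mod_cast hY
  have h1 : ((X * 2 ^ 95 / Y : ℕ) : ℝ) ≤ (X : ℝ) * 2 ^ 95 / (Y : ℝ) := by
    rw [le_div_iff₀ hY']
    have h2 : (X * 2 ^ 95 / Y) * Y ≤ X * 2 ^ 95 := Nat.div_mul_le_self _ _
    exact_mod_cast h2
  refine le_trans (div_le_div_of_nonneg_right h1 (by positivity)) ?_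
  rw [div_div, div_le_div_iff₀ (by positivity) (by positivity)]
  have e1 : w * ((Y : ℝ) * 2 ^ 96) = (w * Y) * 2 ^ 96 := by ring
  have e2 : (X : ℝ) * 2 ^ 95 * (2 * s) = (s * X) * 2 ^ 96 := by ring
  rw [e1, e2]
  exact mul_le_mul_of_nonneg_right h (by positivity)

theorem lowr {A1 a R0 C T d D : ℝ} (apos : 0 < a) (w1 : a * 2 ^ 96 ≤ A1) (h0 : 0 ≤ R0)
    (hD : 0 ≤ D) (h1 : R0 * (A1 * 2 ^ 36) ≤ C * D)
    (h2 : C ≤ T * 2 ^ 80) (h3 : D ≤ d * 2 ^ 96) (hT : 0 < T) : R0 / 2 ^ 44 ≤ T * d / a := by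
  rw [div_le_div_iff₀ (by positivity) apos]
  have i1 : R0 * (a * 2 ^ 96 * 2 ^ 36) ≤ R0 * (A1 * 2 ^ 36) :=
    mul_le_mul_of_nonneg_left (mul_le_mul_of_nonneg_right w1 (by positivity)) h0
  have i2 : C * D ≤ (T * 2 ^ 80) * (d * 2 ^ 96) := mul_le_mul h2 h3 hD (by positivity)
  have i3 : R0 * a * (2 ^ 96 * 2 ^ 36) ≤ (T * d * 2 ^ 44) * (2 ^ 96 * 2 ^ 36) := by
    have e1 : (T * d * 2 ^ 44) * (2 ^ 96 * 2 ^ 36) = (T * 2 ^ 80) * (d * 2 ^ 96) := by ring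
    have e2 : R0 * a * (2 ^ 96 * 2 ^ 36) = R0 * (a * 2 ^ 96 * 2 ^ 36) := by ring
    rw [e1, e2]
    exact (i1.trans h1).trans i2
  exact le_of_mul_le_mul_right i3 (by positivity)

theorem uppr {A0 a R0 C T d D : ℝ} (apos : 0 < a) (w0 : A0 ≤ a * 2 ^ 96) (h0 : 0 ≤ R0)
    (hC : 0 ≤ C) (hd : 0 < d) (h1 : C * D ≤ R0 * (A0 * 2 ^ 36))
    (h2 : T * 2 ^ 80 ≤ C) (h3 : d * 2 ^ 96 ≤ D) : T * d / a ≤ R0 / 2 ^ 44 := by
  rw [div_le_div_iff₀ apos (by positivity)]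
  have i1 : R0 * (A0 * 2 ^ 36) ≤ R0 * (a * 2 ^ 96 * 2 ^ 36) :=
    mul_le_mul_of_nonneg_left (mul_le_mul_of_nonneg_right w0 (by positivity)) h0
  have i2 : (T * 2 ^ 80) * (d * 2 ^ 96) ≤ C * D := mul_le_mul h2 h3 (by positivity) hC
  have i3 : (T * d * 2 ^ 44) * (2 ^ 96 * 2 ^ 36) ≤ R0 * a * (2 ^ 96 * 2 ^ 36) := by
    have e1 : (T * d * 2 ^ 44) * (2 ^ 96 * 2 ^ 36) = (T * 2 ^ 80) * (d * 2 ^ 96) := by ring
    have e2 : R0 * a * (2 ^ 96 * 2 ^ 36) = R0 * (a * 2 ^ 96 * 2 ^ 36) := by ring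
    rw [e1, e2]
    exact (i2.trans h1).trans i1
  exact le_of_mul_le_mul_right i3 (by positivity)

/-- certificate of a pair of nodes `± K / 16` -/
structure Cert where
  K : ℕ
  n : ℕ
  A0 : ℕ
  A1 : ℕ
  B0 : ℕ
  B1 : ℕ
  nt : ℕ
  C0 : ℕ
  C1 : ℕ
  ns : ℕ
  D0 : ℕ
  D1 : ℕ
  l0 : ℕ
  l1 : ℕ
  r0 : ℕ
  r1 : ℕ
  k0 : ℕ
  k1 : ℕ
  q0 : ℕ
  q1 : ℕ

/-- the check: kernel evaluated -/
def chkN (c : Cert) : Bool :=
  chkE0 (c.K * c.K) 512 c.n c.A0 && chkE1 (c.K * c.K) 512 c.n c.A1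
  && chkP0 c.K c.n c.B0 && chkP1 c.K c.n c.B1
  && decide (c.B1 < S0)
  && chkE0 c.C0 (2 ^ 80) c.nt (((S1 - c.B0) * 2 ^ 95) / S1 + 1)
  && chkE1 c.C1 (2 ^ 80) c.nt (((S0 - c.B1) * 2 ^ 95) / S0)
  && chkE0 c.D0 (2 ^ 80) c.ns (((S0 + c.B1) * 2 ^ 95) / S0 + 1)
  && chkE1 c.D1 (2 ^ 80) c.ns (((S1 + c.B0) * 2 ^ 95) / S1)
  && decide (c.l0 * (S1 - c.B0) ≤ c.A0 * 2 ^ 44)
  && decide (c.A1 * 2 ^ 44 ≤ c.l1 * (S0 - c.B1))
  && decide (c.r0 * (c.A1 * 2 ^ 36) ≤ c.C0 * (S0 - c.B1))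
  && decide (c.C1 * (S1 - c.B0) ≤ c.r1 * (c.A0 * 2 ^ 36))
  && decide (c.k0 * (S1 + c.B1) ≤ c.A0 * 2 ^ 44)
  && decide (c.A1 * 2 ^ 44 ≤ c.k1 * (S0 + c.B0))
  && decide (c.q0 * (c.A1 * 2 ^ 36) ≤ c.D0 * (S0 + c.B0))
  && decide (c.D1 * (S1 + c.B1) ≤ c.q1 * (c.A0 * 2 ^ 36))
  && decide (0 < c.A0)

theorem chkN_spec {c : Cert} (h : chkN c = true) :
    Nd ((c.K : ℝ) / 16) c.l0 c.l1 c.r0 c.r1 ∧ Nd (-((c.K : ℝ) / 16)) c.k0 c.k1 c.q0 c.q1 := by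
  obtain ⟨K, n, A0, A1, B0, B1, nt, C0, C1, ns, D0, D1, l0, l1, r0, r1, k0, k1, q0, q1⟩ := c
  simp only [chkN, Bool.and_eq_true, decide_eq_true_eq] at h
  obtain ⟨⟨⟨⟨⟨⟨⟨⟨⟨⟨⟨⟨⟨⟨⟨⟨⟨hA0, hA1⟩, hB0⟩, hB1⟩, hBS⟩, hC0⟩, hC1⟩, hD0⟩, hD1⟩, hl0⟩, hl1⟩, hr0⟩, hr1⟩,
    hk0⟩, hk1⟩, hq0⟩, hq1⟩, hA⟩ := h
  dsimp only
  have eA0 := chkE0_spec (by norm_num) hA0
  have eA1 := chkE1_spec (by norm_num) hA1
  have eB0 := chkP0_spec hB0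
  have eB1 := chkP1_spec hB1
  obtain ⟨s0, s1⟩ := S_bounds
  rw [← sqK, ← ph_eq] at eA0 eA1
  set y : ℝ := (K : ℝ) / 16 with hy
  set s : ℝ := √(2 * π) / 2 with hs
  set b : ℝ := Ph y - Ph 0 with hb
  set a : ℝ := ph y with ha
  have P : (0 : ℝ) < 2 ^ 96 := by positivity
  -- real versions
  have S0pos : (0 : ℝ) < (S0 : ℝ) := by norm_num [S0]
  have S1pos : (0 : ℝ) < (S1 : ℝ) := by norm_num [S1]
  have S01 : (S0 : ℝ) ≤ (S1 : ℝ) := by norm_num [S0, S1]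
  have hBS' : (B1 : ℝ) < (S0 : ℝ) := by exact_mod_cast hBS
  have hA' : (0 : ℝ) < (A0 : ℝ) := by exact_mod_cast hA
  have u0 : (S0 : ℝ) ≤ s * 2 ^ 96 := by rwa [div_le_iff₀ P] at s0
  have u1 : s * 2 ^ 96 ≤ (S1 : ℝ) := by rwa [le_div_iff₀ P] at s1
  have v0 : (B0 : ℝ) ≤ b * 2 ^ 96 := by rwa [div_le_iff₀ P] at eB0
  have v1 : b * 2 ^ 96 ≤ (B1 : ℝ) := by rwa [le_div_iff₀ P] at eB1
  have w0 : (A0 : ℝ) ≤ a * 2 ^ 96 := by rwa [div_le_iff₀ P] at eA0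
  have w1 : a * 2 ^ 96 ≤ (A1 : ℝ) := by rwa [le_div_iff₀ P] at eA1
  have B0n : (0 : ℝ) ≤ (B0 : ℝ) := by positivity
  have B01 : (B0 : ℝ) ≤ (B1 : ℝ) := v0.trans v1
  have hB0S : B0 ≤ S1 := by
    have h1 : (B0 : ℝ) ≤ (S1 : ℝ) := by linarith
    exact_mod_cast h1
  have hB1S : B1 ≤ S0 := hBS.le
  have c1 : ((S1 - B0 : ℕ) : ℝ) = (S1 : ℝ) - B0 := by rw [Nat.cast_sub hB0S]
  have c2 : ((S0 - B1 : ℕ) : ℝ) = (S0 : ℝ) - B1 := by rw [Nat.cast_sub hB1S]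
  have spos : 0 < s := by
    have : 0 < s * 2 ^ 96 := lt_of_lt_of_le S0pos u0
    exact pos_of_mul_pos_left this P.le
  have apos : 0 < a := by
    have : 0 < a * 2 ^ 96 := lt_of_lt_of_le hA' w0
    exact pos_of_mul_pos_left this P.le
  have bnn : 0 ≤ b := by
    have : 0 ≤ b * 2 ^ 96 := B0n.trans v0
    exact nonneg_of_mul_nonneg_left this P
  have sbpos : 0 < s - b := by
    have : 0 < (s - b) * 2 ^ 96 := by
      have : (s - b) * 2 ^ 96 = s * 2 ^ 96 - b * 2 ^ 96 := by ring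
      rw [this]; linarith
    exact pos_of_mul_pos_left this P.le
  have sbp : 0 < s + b := by linarith
  -- `lm`
  have L : lm y = a / (s - b) := by rw [lm_at]
  have Lm : lm (-y) = a / (s + b) := by rw [lm_at_neg]
  have rl0 : (l0 : ℝ) * (S1 - B0) ≤ A0 * 2 ^ 44 := by
    rw [← c1]; exact_mod_cast hl0
  have rl1 : (A1 : ℝ) * 2 ^ 44 ≤ l1 * (S0 - B1) := by
    rw [← c2]; exact_mod_cast hl1
  have rk0 : (k0 : ℝ) * (S1 + B1) ≤ A0 * 2 ^ 44 := by exact_mod_cast hk0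
  have rk1 : (A1 : ℝ) * 2 ^ 44 ≤ k1 * (S0 + B0) := by exact_mod_cast hk1
  have rr0 : (r0 : ℝ) * (A1 * 2 ^ 36) ≤ C0 * (S0 - B1) := by
    rw [← c2]; exact_mod_cast hr0
  have rr1 : (C1 : ℝ) * (S1 - B0) ≤ r1 * (A0 * 2 ^ 36) := by
    rw [← c1]; exact_mod_cast hr1
  have rq0 : (q0 : ℝ) * (A1 * 2 ^ 36) ≤ D0 * (S0 + B0) := by exact_mod_cast hq0
  have rq1 : (D1 : ℝ) * (S1 + B1) ≤ q1 * (A0 * 2 ^ 36) := by exact_mod_cast hq1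
  have ms : (s - b) * 2 ^ 96 = s * 2 ^ 96 - b * 2 ^ 96 := by ring
  have ps : (s + b) * 2 ^ 96 = s * 2 ^ 96 + b * 2 ^ 96 := by ring
  have e1 : (S0 : ℝ) - B1 ≤ (s - b) * 2 ^ 96 := by
    rw [ms]; linarith only [u0, v1]
  have e2 : (s - b) * 2 ^ 96 ≤ (S1 : ℝ) - B0 := by
    rw [ms]; linarith only [u1, v0]
  have e3 : (S0 : ℝ) + B0 ≤ (s + b) * 2 ^ 96 := by
    rw [ps]; linarith only [u0, v0]
  have e4 : (s + b) * 2 ^ 96 ≤ (S1 : ℝ) + B1 := by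
    rw [ps]; linarith only [u1, v1]
  have fl0 : (l0 : ℝ) / 2 ^ 44 ≤ lm y := by
    rw [L]; exact hlow (Nat.cast_nonneg l0) sbpos e2 w0 rl0
  have fl1 : lm y ≤ (l1 : ℝ) / 2 ^ 44 := by
    rw [L]; exact hupp (Nat.cast_nonneg l1) sbpos e1 w1 rl1
  have fk0 : (k0 : ℝ) / 2 ^ 44 ≤ lm (-y) := by
    rw [Lm]; exact hlow (Nat.cast_nonneg k0) sbp e4 w0 rk0
  have fk1 : lm (-y) ≤ (k1 : ℝ) / 2 ^ 44 := by
    rw [Lm]; exact hupp (Nat.cast_nonneg k1) sbp e3 w1 rk1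
  -- `t`
  have q80 : ((2 ^ 80 : ℕ) : ℝ) = (2 : ℝ) ^ 80 := by push_cast; ring
  have gC0 := chkE0_spec (by norm_num) hC0
  have gC1 := chkE1_spec (by norm_num) hC1
  have gD0 := chkE0_spec (by norm_num) hD0
  have gD1 := chkE1_spec (by norm_num) hD1
  rw [q80] at gC0 gC1 gD0 gD1
  have S0n : 0 < S0 := by norm_num [S0]
  have S1n : 0 < S1 := by norm_num [S1]
  have Qy : Qs y = (s - b) / (2 * s) := by rw [Qs_at]
  have Qm : Qs (-y) = (s + b) / (2 * s) := by rw [Qs_at_neg]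
  have x1 : b * (S0 : ℝ) ≤ s * B1 := by
    have h1 : (b * 2 ^ 96) * (S0 : ℝ) ≤ (B1 : ℝ) * (s * 2 ^ 96) :=
      mul_le_mul v1 u0 S0pos.le (by positivity)
    have h2 : (b * (S0 : ℝ)) * 2 ^ 96 ≤ (s * B1) * 2 ^ 96 := by linarith only [h1]
    exact le_of_mul_le_mul_right h2 P
  have x2 : s * (B0 : ℝ) ≤ b * S1 := by
    have h1 : (B0 : ℝ) * (s * 2 ^ 96) ≤ (b * 2 ^ 96) * (S1 : ℝ) :=
      mul_le_mul v0 u1 (by positivity) (by positivity)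
    have h2 : (s * (B0 : ℝ)) * 2 ^ 96 ≤ (b * S1) * 2 ^ 96 := by linarith only [h1]
    exact le_of_mul_le_mul_right h2 P
  have tC0 : (C0 : ℝ) / 2 ^ 80 ≤ t y := by
    apply t_ge
    refine le_trans ?_ gC0
    rw [Qy]
    refine qupp spos S1n ?_
    rw [c1]
    linarith only [x2]
  have tC1 : t y ≤ (C1 : ℝ) / 2 ^ 80 := by
    apply t_le
    refine le_trans gC1 ?_
    rw [Qy]
    refine qlow spos S0n ?_
    rw [c2]
    linarith only [x1]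
  have tD0 : (D0 : ℝ) / 2 ^ 80 ≤ t (-y) := by
    apply t_ge
    refine le_trans ?_ gD0
    rw [Qm]
    refine qupp spos S0n ?_
    push_cast
    linarith only [x1]
  have tD1 : t (-y) ≤ (D1 : ℝ) / 2 ^ 80 := by
    apply t_le
    refine le_trans gD1 ?_
    rw [Qm]
    refine qlow spos S1n ?_
    push_cast
    linarith only [x2]
  -- `r`
  have tpos := H156.t_pos y
  have tmpos := H156.t_pos (-y)
  have ry : r y = t y * (s - b) / a := by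
    unfold H156.r
    rw [L]
    field_simp
  have rm : r (-y) = t (-y) * (s + b) / a := by
    unfold H156.r
    rw [Lm]
    field_simp
  have C0' : (C0 : ℝ) ≤ t y * 2 ^ 80 := by rwa [div_le_iff₀ (by positivity)] at tC0
  have C1' : t y * 2 ^ 80 ≤ (C1 : ℝ) := by rwa [le_div_iff₀ (by positivity)] at tC1
  have D0' : (D0 : ℝ) ≤ t (-y) * 2 ^ 80 := by rwa [div_le_iff₀ (by positivity)] at tD0
  have D1' : t (-y) * 2 ^ 80 ≤ (D1 : ℝ) := by rwa [le_div_iff₀ (by positivity)] at tD1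
  refine ⟨⟨fl0, fl1, ?_, ?_⟩, ⟨fk0, fk1, ?_, ?_⟩⟩
  · rw [ry]
    exact lowr apos w1 (Nat.cast_nonneg r0) (by linarith only [hBS']) rr0 C0' e1 tpos
  · rw [ry]
    exact uppr apos w0 (Nat.cast_nonneg r1) (Nat.cast_nonneg C1) sbpos rr1 C1' e2
  · rw [rm]
    exact lowr apos w1 (Nat.cast_nonneg q0) (by positivity) rq0 D0' e3 tmpos
  · rw [rm]
    exact uppr apos w0 (Nat.cast_nonneg q1) (Nat.cast_nonneg D1) sbp rq1 D1' e4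

end Vale.Agent.P254.SP.H674
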