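import Vale.Agent.P254.SP.H674.Num3

/-!
P254, (SP) line, block SP-NUM (helper674): certified numerics of the Gaussian hazard, part 5:
the node check with an arbitrary denominator `d`.
-/

set_option autoImplicit false

namespace Vale.Agent.P254.SP.H674

open Real Set
open Vale.Agent.P254.H876 (ph Ph lam m)
open Vale.Agent.P254.H156 (lm nu t r r1 r2 Qs)

/-- lower bound `B / 2 ^ 96 ≤ Ph (K / d) - Ph 0` -/
def chkQ0 (d K n B : ℕ) : Bool :=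
  match tI (K * K) (2 * (d * d)) (2 * n) with
  | (_, S, D, W) => decide (((B * (d * (D * W)) : ℕ) : ℤ) ≤ S * (2 ^ 96 * K : ℕ))

def chkQ1 (d K n B : ℕ) : Bool :=
  match tI (K * K) (2 * (d * d)) (2 * n + 1) with
  | (_, S, D, W) => decide (S * (2 ^ 96 * K : ℕ) ≤ ((B * (d * (D * W)) : ℕ) : ℤ))

theorem sqKd (d K : ℕ) : ((K : ℝ) / d) ^ 2 / 2 = ((K * K : ℕ) : ℝ) / ((2 * (d * d) : ℕ) : ℝ) := by
  push_cast
  rw [div_pow, div_div]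
  congr 1 <;> ring

theorem chkQ0_spec {d K n B : ℕ} (hd : 0 < d) (h : chkQ0 d K n B = true) :
    (B : ℝ) / 2 ^ 96 ≤ Ph ((K : ℝ) / d) - Ph 0 := by
  have h1 := Ph_ge (x := (K : ℝ) / d) (by positivity) n
  refine le_trans ?_ h1
  have hdr : (0 : ℝ) < (d : ℝ) := by exact_mod_cast hd
  rw [tS_eq, sqKd]
  obtain ⟨-, h0, hw, h2⟩ := tI_spec (K * K) (2 * (d * d)) (by positivity) (2 * n)
  have hD : (0 : ℝ) < ((tI (K * K) (2 * (d * d)) (2 * n)).2.2.1 : ℝ) := by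
    rw [h0]
    have := Nat.factorial_pos (2 * n)
    positivity
  have hW : (0 : ℝ) < ((tI (K * K) (2 * (d * d)) (2 * n)).2.2.2 : ℝ) := by exact_mod_cast hw
  rw [h2]
  have h4 : ((B * (d * ((tI (K * K) (2 * (d * d)) (2 * n)).2.2.1 * (tI (K * K) (2 * (d * d)) (2 * n)).2.2.2)) : ℕ) : ℤ)
      ≤ (tI (K * K) (2 * (d * d)) (2 * n)).2.1 * (2 ^ 96 * K : ℕ) := of_decide_eq_true h
  have h5 : (B : ℝ) * (d * (((tI (K * K) (2 * (d * d)) (2 * n)).2.2.1 : ℝ)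
      * ((tI (K * K) (2 * (d * d)) (2 * n)).2.2.2 : ℝ)))
      ≤ ((tI (K * K) (2 * (d * d)) (2 * n)).2.1 : ℝ) * (2 ^ 96 * (K : ℝ)) := by exact_mod_cast h4
  rw [div_mul_div_comm, div_le_div_iff₀ (by positivity) (by positivity)]
  linarith only [h5]

theorem chkQ1_spec {d K n B : ℕ} (hd : 0 < d) (h : chkQ1 d K n B = true) :
    Ph ((K : ℝ) / d) - Ph 0 ≤ (B : ℝ) / 2 ^ 96 := by
  have h1 := Ph_le (x := (K : ℝ) / d) (by positivity) n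
  refine le_trans h1 ?_
  have hdr : (0 : ℝ) < (d : ℝ) := by exact_mod_cast hd
  rw [tS_eq, sqKd]
  obtain ⟨-, h0, hw, h2⟩ := tI_spec (K * K) (2 * (d * d)) (by positivity) (2 * n + 1)
  have hD : (0 : ℝ) < ((tI (K * K) (2 * (d * d)) (2 * n + 1)).2.2.1 : ℝ) := by
    rw [h0]
    have := Nat.factorial_pos (2 * n + 1)
    positivity
  have hW : (0 : ℝ) < ((tI (K * K) (2 * (d * d)) (2 * n + 1)).2.2.2 : ℝ) := by exact_mod_cast hw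
  rw [h2]
  have h4 : (tI (K * K) (2 * (d * d)) (2 * n + 1)).2.1 * (2 ^ 96 * K : ℕ) ≤
      ((B * (d * ((tI (K * K) (2 * (d * d)) (2 * n + 1)).2.2.1 * (tI (K * K) (2 * (d * d)) (2 * n + 1)).2.2.2)) : ℕ) : ℤ)
      := of_decide_eq_true h
  have h5 : ((tI (K * K) (2 * (d * d)) (2 * n + 1)).2.1 : ℝ) * (2 ^ 96 * (K : ℝ)) ≤
      (B : ℝ) * (d * (((tI (K * K) (2 * (d * d)) (2 * n + 1)).2.2.1 : ℝ)
      * ((tI (K * K) (2 * (d * d)) (2 * n + 1)).2.2.2 : ℝ))) := by exact_mod_cast h4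
  rw [div_mul_div_comm, div_le_div_iff₀ (by positivity) (by positivity)]
  linarith only [h5]

/-- the check: kernel evaluated -/
def chkM (d : ℕ) (c : Cert) : Bool :=
  chkE0 (c.K * c.K) (2 * (d * d)) c.n c.A0 && chkE1 (c.K * c.K) (2 * (d * d)) c.n c.A1
  && chkQ0 d c.K c.n c.B0 && chkQ1 d c.K c.n c.B1
  && decide (c.B1 < S0)
  && chkE0 c.C0 (2 ^ 80) c.nt (((S1 - c.B0) * 2 ^ 95) / S1 + 1)
  && chkE1 c.C1 (2 ^ 80) c.nt (((S0 - c.B1) * 2 ^ 95) / S0)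
  && chkE0 c.D0 (2 ^ 80) c.ns (((S0 + c.B1) * 2 ^ 95) / S0 + 1)
  && chkE1 c.D1 (2 ^ 80) c.ns (((S1 + c.B0) * 2 ^ 95) / S1)
  && decide (c.l0 * (S1 - c.B0) ≤ c.A0 * 2 ^ 44)
  && decide (c.A1 * 2 ^ 44 ≤ c.l1 * (S0 - c.B1))
  && decide (c.r0 * (c.A1 * 2 ^ 36) ≤ c.C0 * (S0 - c.B1))
  && decide (c.C1 * (S1 - c.B0) ≤ c.r1 * (c.A0 * 2 ^ 36))
  && decide (c.k0 * (S1 + c.B1) ≤ c.A0 * 2 ^ 44)
  && decide (c.A1 * 2 ^ 44 ≤ c.k1 * (S0 + c.B0))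
  && decide (c.q0 * (c.A1 * 2 ^ 36) ≤ c.D0 * (S0 + c.B0))
  && decide (c.D1 * (S1 + c.B1) ≤ c.q1 * (c.A0 * 2 ^ 36))
  && decide (0 < c.A0)

theorem chkM_spec {d : ℕ} (hd : 0 < d) {c : Cert} (h : chkM d c = true) :
    Nd ((c.K : ℝ) / d) c.l0 c.l1 c.r0 c.r1 ∧ Nd (-((c.K : ℝ) / d)) c.k0 c.k1 c.q0 c.q1 := by
  obtain ⟨K, n, A0, A1, B0, B1, nt, C0, C1, ns, D0, D1, l0, l1, r0, r1, k0, k1, q0, q1⟩ := c
  simp only [chkM, Bool.and_eq_true, decide_eq_true_eq] at h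
  obtain ⟨⟨⟨⟨⟨⟨⟨⟨⟨⟨⟨⟨⟨⟨⟨⟨⟨hA0, hA1⟩, hB0⟩, hB1⟩, hBS⟩, hC0⟩, hC1⟩, hD0⟩, hD1⟩, hl0⟩, hl1⟩, hr0⟩, hr1⟩,
    hk0⟩, hk1⟩, hq0⟩, hq1⟩, hA⟩ := h
  dsimp only
  have eA0 := chkE0_spec (by positivity) hA0
  have eA1 := chkE1_spec (by positivity) hA1
  have eB0 := chkQ0_spec hd hB0
  have eB1 := chkQ1_spec hd hB1
  obtain ⟨s0, s1⟩ := S_bounds
  rw [← sqKd, ← ph_eq] at eA0 eA1
  set y : ℝ := (K : ℝ) / d with hy
  set s : ℝ := √(2 * π) / 2 with hs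
  set b : ℝ := Ph y - Ph 0 with hb
  set a : ℝ := ph y with ha
  have P : (0 : ℝ) < 2 ^ 96 := by positivity
  -- real versions
  have S0pos : (0 : ℝ) < (S0 : ℝ) := by norm_num [S0]
  have S1pos : (0 : ℝ) < (S1 : ℝ) := by norm_num [S1]
  have S01 : (S0 : ℝ) ≤ (S1 : ℝ) := by norm_num [S0, S1]
  have hBS' : (B1 : ℝ) < (S0 : ℝ) := by exact_mod_cast hBS
  have hA' : (0 : ℝ) < (A0 : ℝ) := by exact_mod_cast hA
  have u0 : (S0 : ℝ) ≤ s * 2 ^ 96 := by rwa [div_le_iff₀ P] at s0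
  have u1 : s * 2 ^ 96 ≤ (S1 : ℝ) := by rwa [le_div_iff₀ P] at s1
  have v0 : (B0 : ℝ) ≤ b * 2 ^ 96 := by rwa [div_le_iff₀ P] at eB0
  have v1 : b * 2 ^ 96 ≤ (B1 : ℝ) := by rwa [le_div_iff₀ P] at eB1
  have w0 : (A0 : ℝ) ≤ a * 2 ^ 96 := by rwa [div_le_iff₀ P] at eA0
  have w1 : a * 2 ^ 96 ≤ (A1 : ℝ) := by rwa [le_div_iff₀ P] at eA1
  have B0n : (0 : ℝ) ≤ (B0 : ℝ) := by positivity
  have B01 : (B0 : ℝ) ≤ (B1 : ℝ) := v0.trans v1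
  have hB0S : B0 ≤ S1 := by
    have h1 : (B0 : ℝ) ≤ (S1 : ℝ) := by linarith
    exact_mod_cast h1
  have hB1S : B1 ≤ S0 := hBS.le
  have c1 : ((S1 - B0 : ℕ) : ℝ) = (S1 : ℝ) - B0 := by rw [Nat.cast_sub hB0S]
  have c2 : ((S0 - B1 : ℕ) : ℝ) = (S0 : ℝ) - B1 := by rw [Nat.cast_sub hB1S]
  have spos : 0 < s := by
    have : 0 < s * 2 ^ 96 := lt_of_lt_of_le S0pos u0
    exact pos_of_mul_pos_left this P.le
  have apos : 0 < a := by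
    have : 0 < a * 2 ^ 96 := lt_of_lt_of_le hA' w0
    exact pos_of_mul_pos_left this P.le
  have bnn : 0 ≤ b := by
    have : 0 ≤ b * 2 ^ 96 := B0n.trans v0
    exact nonneg_of_mul_nonneg_left this P
  have sbpos : 0 < s - b := by
    have : 0 < (s - b) * 2 ^ 96 := by
      have : (s - b) * 2 ^ 96 = s * 2 ^ 96 - b * 2 ^ 96 := by ring
      rw [this]; linarith
    exact pos_of_mul_pos_left this P.le
  have sbp : 0 < s + b := by linarith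
  -- `lm`
  have L : lm y = a / (s - b) := by rw [lm_at]
  have Lm : lm (-y) = a / (s + b) := by rw [lm_at_neg]
  have rl0 : (l0 : ℝ) * (S1 - B0) ≤ A0 * 2 ^ 44 := by
    rw [← c1]; exact_mod_cast hl0
  have rl1 : (A1 : ℝ) * 2 ^ 44 ≤ l1 * (S0 - B1) := by
    rw [← c2]; exact_mod_cast hl1
  have rk0 : (k0 : ℝ) * (S1 + B1) ≤ A0 * 2 ^ 44 := by exact_mod_cast hk0
  have rk1 : (A1 : ℝ) * 2 ^ 44 ≤ k1 * (S0 + B0) := by exact_mod_cast hk1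
  have rr0 : (r0 : ℝ) * (A1 * 2 ^ 36) ≤ C0 * (S0 - B1) := by
    rw [← c2]; exact_mod_cast hr0
  have rr1 : (C1 : ℝ) * (S1 - B0) ≤ r1 * (A0 * 2 ^ 36) := by
    rw [← c1]; exact_mod_cast hr1
  have rq0 : (q0 : ℝ) * (A1 * 2 ^ 36) ≤ D0 * (S0 + B0) := by exact_mod_cast hq0
  have rq1 : (D1 : ℝ) * (S1 + B1) ≤ q1 * (A0 * 2 ^ 36) := by exact_mod_cast hq1
  have ms : (s - b) * 2 ^ 96 = s * 2 ^ 96 - b * 2 ^ 96 := by ring
  have ps : (s + b) * 2 ^ 96 = s * 2 ^ 96 + b * 2 ^ 96 := by ring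
  have e1 : (S0 : ℝ) - B1 ≤ (s - b) * 2 ^ 96 := by
    rw [ms]; linarith only [u0, v1]
  have e2 : (s - b) * 2 ^ 96 ≤ (S1 : ℝ) - B0 := by
    rw [ms]; linarith only [u1, v0]
  have e3 : (S0 : ℝ) + B0 ≤ (s + b) * 2 ^ 96 := by
    rw [ps]; linarith only [u0, v0]
  have e4 : (s + b) * 2 ^ 96 ≤ (S1 : ℝ) + B1 := by
    rw [ps]; linarith only [u1, v1]
  have fl0 : (l0 : ℝ) / 2 ^ 44 ≤ lm y := by
    rw [L]; exact hlow (Nat.cast_nonneg l0) sbpos e2 w0 rl0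
  have fl1 : lm y ≤ (l1 : ℝ) / 2 ^ 44 := by
    rw [L]; exact hupp (Nat.cast_nonneg l1) sbpos e1 w1 rl1
  have fk0 : (k0 : ℝ) / 2 ^ 44 ≤ lm (-y) := by
    rw [Lm]; exact hlow (Nat.cast_nonneg k0) sbp e4 w0 rk0
  have fk1 : lm (-y) ≤ (k1 : ℝ) / 2 ^ 44 := by
    rw [Lm]; exact hupp (Nat.cast_nonneg k1) sbp e3 w1 rk1
  -- `t`
  have q80 : ((2 ^ 80 : ℕ) : ℝ) = (2 : ℝ) ^ 80 := by push_cast; ring
  have gC0 := chkE0_spec (by norm_num) hC0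
  have gC1 := chkE1_spec (by norm_num) hC1
  have gD0 := chkE0_spec (by norm_num) hD0
  have gD1 := chkE1_spec (by norm_num) hD1
  rw [q80] at gC0 gC1 gD0 gD1
  have S0n : 0 < S0 := by norm_num [S0]
  have S1n : 0 < S1 := by norm_num [S1]
  have Qy : Qs y = (s - b) / (2 * s) := by rw [Qs_at]
  have Qm : Qs (-y) = (s + b) / (2 * s) := by rw [Qs_at_neg]
  have x1 : b * (S0 : ℝ) ≤ s * B1 := by
    have h1 : (b * 2 ^ 96) * (S0 : ℝ) ≤ (B1 : ℝ) * (s * 2 ^ 96) :=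
      mul_le_mul v1 u0 S0pos.le (by positivity)
    have h2 : (b * (S0 : ℝ)) * 2 ^ 96 ≤ (s * B1) * 2 ^ 96 := by linarith only [h1]
    exact le_of_mul_le_mul_right h2 P
  have x2 : s * (B0 : ℝ) ≤ b * S1 := by
    have h1 : (B0 : ℝ) * (s * 2 ^ 96) ≤ (b * 2 ^ 96) * (S1 : ℝ) :=
      mul_le_mul v0 u1 (by positivity) (by positivity)
    have h2 : (s * (B0 : ℝ)) * 2 ^ 96 ≤ (b * S1) * 2 ^ 96 := by linarith only [h1]
    exact le_of_mul_le_mul_right h2 P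
  have tC0 : (C0 : ℝ) / 2 ^ 80 ≤ t y := by
    apply t_ge
    refine le_trans ?_ gC0
    rw [Qy]
    refine qupp spos S1n ?_
    rw [c1]
    linarith only [x2]
  have tC1 : t y ≤ (C1 : ℝ) / 2 ^ 80 := by
    apply t_le
    refine le_trans gC1 ?_
    rw [Qy]
    refine qlow spos S0n ?_
    rw [c2]
    linarith only [x1]
  have tD0 : (D0 : ℝ) / 2 ^ 80 ≤ t (-y) := by
    apply t_ge
    refine le_trans ?_ gD0
    rw [Qm]
    refine qupp spos S0n ?_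
    push_cast
    linarith only [x1]
  have tD1 : t (-y) ≤ (D1 : ℝ) / 2 ^ 80 := by
    apply t_le
    refine le_trans gD1 ?_
    rw [Qm]
    refine qlow spos S1n ?_
    push_cast
    linarith only [x2]
  -- `r`
  have tpos := H156.t_pos y
  have tmpos := H156.t_pos (-y)
  have ry : r y = t y * (s - b) / a := by
    unfold H156.r
    rw [L]
    field_simp
  have rm : r (-y) = t (-y) * (s + b) / a := by
    unfold H156.r
    rw [Lm]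
    field_simp
  have C0' : (C0 : ℝ) ≤ t y * 2 ^ 80 := by rwa [div_le_iff₀ (by positivity)] at tC0
  have C1' : t y * 2 ^ 80 ≤ (C1 : ℝ) := by rwa [le_div_iff₀ (by positivity)] at tC1
  have D0' : (D0 : ℝ) ≤ t (-y) * 2 ^ 80 := by rwa [div_le_iff₀ (by positivity)] at tD0
  have D1' : t (-y) * 2 ^ 80 ≤ (D1 : ℝ) := by rwa [le_div_iff₀ (by positivity)] at tD1
  refine ⟨⟨fl0, fl1, ?_, ?_⟩, ⟨fk0, fk1, ?_, ?_⟩⟩
  · rw [ry]
    exact lowr apos w1 (Nat.cast_nonneg r0) (by linarith only [hBS']) rr0 C0' e1 tpos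
  · rw [ry]
    exact uppr apos w0 (Nat.cast_nonneg r1) (Nat.cast_nonneg C1) sbpos rr1 C1' e2
  · rw [rm]
    exact lowr apos w1 (Nat.cast_nonneg q0) (by positivity) rq0 D0' e3 tmpos
  · rw [rm]
    exact uppr apos w0 (Nat.cast_nonneg q1) (Nat.cast_nonneg D1) sbp rq1 D1' e4


end Vale.Agent.P254.SP.H674
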