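import Mathlib

/-!
P254, (SP_0) line, P4 (helper674, for helper20): the algebra of the last range `[q₀, ∞)` in mode 0
(`T0 = L2 = L3 = L5 = L7 = 0`, `m = 1`).  All numbers are variables; everything is divided by `c`
(`L1 = c l1`, `L4 = c l4`, `L6 = c l6`, `Mt = c μ`, `B4 = c β`).
-/

set_option autoImplicit false

namespace Vale.Agent.P254.SP.H674

/-- the form in `(f, α, k₁)`, divided by `c` -/
theorem formA0_core {S ν b₁ β l6 f al k1 : ℝ} (hS0 : 0 ≤ S) (hS : S ≤ 1 / 2) (hb : 1 < b₁)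
    (hβ : 0 < β) (h6 : l6 ≤ 1 - ν - b₁ / (4 * (b₁ - 1)) - (1 - β) ^ 2 / (16 * β)) :
    0 ≤ (1 - ν - l6) * f ^ 2 - (S * f + k1) ^ 2 + b₁ * k1 ^ 2 - (1 - β) * S ^ 2 * al * f
      + β * S ^ 2 * al ^ 2 := by
  have hb' : 0 < b₁ - 1 := by linarith
  have hS2 : S ^ 2 ≤ 1 / 4 := by nlinarith
  have hS2' : 0 ≤ S ^ 2 := sq_nonneg S
  have e1 : -(S * f + k1) ^ 2 + b₁ * k1 ^ 2
      = -(b₁ / (b₁ - 1)) * (S * f) ^ 2 + (b₁ - 1) * (k1 - S * f / (b₁ - 1)) ^ 2 := by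
    field_simp
    ring
  have e2 : -((1 - β) * S ^ 2 * al * f) + β * S ^ 2 * al ^ 2
      = -((1 - β) ^ 2 / (4 * β)) * S ^ 2 * f ^ 2
        + β * S ^ 2 * (al - (1 - β) * f / (2 * β)) ^ 2 := by
    field_simp
    ring
  have h1 : 0 ≤ (b₁ - 1) * (k1 - S * f / (b₁ - 1)) ^ 2 := by positivity
  have h2 : 0 ≤ β * S ^ 2 * (al - (1 - β) * f / (2 * β)) ^ 2 := by positivity
  have h3 : b₁ / (b₁ - 1) * (S * f) ^ 2 ≤ b₁ / (4 * (b₁ - 1)) * f ^ 2 := by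
    have : b₁ / (4 * (b₁ - 1)) * f ^ 2 - b₁ / (b₁ - 1) * (S * f) ^ 2
        = b₁ / (b₁ - 1) * ((1 / 4 - S ^ 2) * f ^ 2) := by
      field_simp
    have h4 : 0 ≤ b₁ / (b₁ - 1) * ((1 / 4 - S ^ 2) * f ^ 2) := by
      have : 0 ≤ 1 / 4 - S ^ 2 := by linarith
      have hb0 : 0 < b₁ := by linarith
      positivity
    linarith
  have h5 : (1 - β) ^ 2 / (4 * β) * S ^ 2 * f ^ 2 ≤ (1 - β) ^ 2 / (16 * β) * f ^ 2 := by
    have : (1 - β) ^ 2 / (16 * β) * f ^ 2 - (1 - β) ^ 2 / (4 * β) * S ^ 2 * f ^ 2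
        = (1 - β) ^ 2 / (4 * β) * ((1 / 4 - S ^ 2) * f ^ 2) := by
      field_simp
      ring
    have h4 : 0 ≤ (1 - β) ^ 2 / (4 * β) * ((1 / 4 - S ^ 2) * f ^ 2) := by
      have : 0 ≤ 1 / 4 - S ^ 2 := by linarith
      positivity
    linarith
  have h7 : (b₁ / (4 * (b₁ - 1)) + (1 - β) ^ 2 / (16 * β)) * f ^ 2 ≤ (1 - ν - l6) * f ^ 2 :=
    mul_le_mul_of_nonneg_right (by linarith) (sq_nonneg f)
  nlinarith [h1, h2, h3, h5, h7, e1, e2]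

/-- `FormA` of mode 0 -/
theorem formA0_nonneg {S c ν b₁ β l6 f al k1 : ℝ} (hc : 0 < c) (hS0 : 0 ≤ S) (hS : S ≤ 1 / 2)
    (hb : 1 < b₁) (hβ : 0 < β)
    (h6 : l6 ≤ 1 - ν - b₁ / (4 * (b₁ - 1)) - (1 - β) ^ 2 / (16 * β)) :
    0 ≤ c * f ^ 2 - c * (S * f + k1) ^ 2 - c * (S ^ 2 * al * f)
      + c * β * (S ^ 2 * al ^ 2 + S ^ 2 * al * f) - c * l6 * f ^ 2 - c * ν * f ^ 2
      + c * b₁ * k1 ^ 2 := by
  have h := mul_nonneg hc.le (formA0_core (f := f) (al := al) (k1 := k1) hS0 hS hb hβ h6)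
  have e : c * f ^ 2 - c * (S * f + k1) ^ 2 - c * (S ^ 2 * al * f)
      + c * β * (S ^ 2 * al ^ 2 + S ^ 2 * al * f) - c * l6 * f ^ 2 - c * ν * f ^ 2
      + c * b₁ * k1 ^ 2
      = c * ((1 - ν - l6) * f ^ 2 - (S * f + k1) ^ 2 + b₁ * k1 ^ 2 - (1 - β) * S ^ 2 * al * f
        + β * S ^ 2 * al ^ 2) := by ring
  rw [e]
  exact h

/-- `V = w - μ θ' - β S²` -/
def VV (μ β w th1 S : ℝ) : ℝ := w - μ * th1 - β * S ^ 2

/-- the slope in `q` -/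
noncomputable def A1 (μ β ν b w th1 S : ℝ) : ℝ :=
  VV μ β w th1 S - VV μ β w th1 S ^ 2 / (4 * ν) - S / (4 * b)

/-- the one-variable function of the last range -/
noncomputable def PH (μ β ν b Y l1 l4 lc c ρ q g w th th1 S L : ℝ) : ℝ :=
  (q - 1) * w + 1 - lc - L ^ 2 / c + l4 * g + μ * (g * th - q * th1) - β * S ^ 2 * q
    - q * S / (4 * b) - q * VV μ β w th1 S ^ 2 / (4 * ν)
    - ((1 - μ) * th + l1) ^ 2 / (4 * Y) - ρ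

theorem PH_eq (μ β ν b Y l1 l4 lc c ρ q q₀ g w th th1 S L : ℝ) :
    PH μ β ν b Y l1 l4 lc c ρ q g w th th1 S L = PH μ β ν b Y l1 l4 lc c ρ q₀ g w th th1 S L
      + (q - q₀) * A1 μ β ν b w th1 S := by
  unfold PH A1 VV
  ring

theorem PH_nonneg {μ β ν b Y l1 l4 lc c ρ q q₀ g w th th1 S L : ℝ} (hq : q₀ ≤ q)
    (h0 : 0 ≤ PH μ β ν b Y l1 l4 lc c ρ q₀ g w th th1 S L) (h1 : 0 ≤ A1 μ β ν b w th1 S) :
    0 ≤ PH μ β ν b Y l1 l4 lc c ρ q g w th th1 S L := by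
  rw [PH_eq μ β ν b Y l1 l4 lc c ρ q q₀]
  have := mul_nonneg (sub_nonneg.2 hq) h1
  linarith

/-- the form in `(x, y, ζ, κ₂)`, divided by `c`; `γ² = S` -/
theorem formB0_core {μ β ν b Y l1 l4 l6 lc c ρ q g w th th1 S L γ x y ze ka : ℝ}
    (hq : 0 < q) (hν : 0 < ν) (hb : 0 < b) (hY : 0 < Y) (hYl : Y ≤ 2 * l6 - 1 - ρ) (hγ : γ ^ 2 = S)
    (hP : 0 ≤ PH μ β ν b Y l1 l4 lc c ρ q g w th th1 S L) :
    0 ≤ -y ^ 2 + ((q - 1) * (w * x ^ 2) + w * x * ze + th * x * y)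
      + (1 - lc - L ^ 2 / c) * x ^ 2 + l1 * (x * y) + l4 * (g * x ^ 2)
      + μ * (th * g * x ^ 2 - th * x * y - th1 * x * (q * x + ze))
      - β * (S ^ 2 * x * (q * x + ze)) + 2 * l6 * y ^ 2 + x * (γ * ka)
      + ν * q⁻¹ * ze ^ 2 + b * q⁻¹ * ka ^ 2 - ρ * (y ^ 2 + x ^ 2) := by
  have e1 : x * (γ * ka) + b * q⁻¹ * ka ^ 2
      = -(q * S / (4 * b)) * x ^ 2 + b * q⁻¹ * (ka + q * γ * x / (2 * b)) ^ 2 := by
    rw [← hγ]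
    field_simp
    ring
  have e2 : VV μ β w th1 S * x * ze + ν * q⁻¹ * ze ^ 2
      = -(q * VV μ β w th1 S ^ 2 / (4 * ν)) * x ^ 2
        + ν * q⁻¹ * (ze + q * VV μ β w th1 S * x / (2 * ν)) ^ 2 := by
    field_simp
    ring
  have e3 : ((1 - μ) * th + l1) * x * y + Y * y ^ 2
      = -(((1 - μ) * th + l1) ^ 2 / (4 * Y)) * x ^ 2
        + Y * (y + ((1 - μ) * th + l1) * x / (2 * Y)) ^ 2 := by
    field_simp
    ring
  have h1 : 0 ≤ b * q⁻¹ * (ka + q * γ * x / (2 * b)) ^ 2 := by positivity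
  have h2 : 0 ≤ ν * q⁻¹ * (ze + q * VV μ β w th1 S * x / (2 * ν)) ^ 2 := by positivity
  have h3 : 0 ≤ Y * (y + ((1 - μ) * th + l1) * x / (2 * Y)) ^ 2 := by positivity
  have h4 : 0 ≤ (2 * l6 - 1 - ρ - Y) * y ^ 2 := mul_nonneg (by linarith) (sq_nonneg y)
  have h5 : 0 ≤ PH μ β ν b Y l1 l4 lc c ρ q g w th th1 S L * x ^ 2 := mul_nonneg hP (sq_nonneg x)
  have key : -y ^ 2 + ((q - 1) * (w * x ^ 2) + w * x * ze + th * x * y)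
      + (1 - lc - L ^ 2 / c) * x ^ 2 + l1 * (x * y) + l4 * (g * x ^ 2)
      + μ * (th * g * x ^ 2 - th * x * y - th1 * x * (q * x + ze))
      - β * (S ^ 2 * x * (q * x + ze)) + 2 * l6 * y ^ 2 + x * (γ * ka)
      + ν * q⁻¹ * ze ^ 2 + b * q⁻¹ * ka ^ 2 - ρ * (y ^ 2 + x ^ 2)
      = PH μ β ν b Y l1 l4 lc c ρ q g w th th1 S L * x ^ 2 + (2 * l6 - 1 - ρ - Y) * y ^ 2
        + b * q⁻¹ * (ka + q * γ * x / (2 * b)) ^ 2
        + ν * q⁻¹ * (ze + q * VV μ β w th1 S * x / (2 * ν)) ^ 2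
        + Y * (y + ((1 - μ) * th + l1) * x / (2 * Y)) ^ 2 := by
    have e4 : VV μ β w th1 S = w - μ * th1 - β * S ^ 2 := rfl
    have e5 : PH μ β ν b Y l1 l4 lc c ρ q g w th th1 S L
      = (q - 1) * w + 1 - lc - L ^ 2 / c + l4 * g + μ * (g * th - q * th1) - β * S ^ 2 * q
    - q * S / (4 * b) - q * VV μ β w th1 S ^ 2 / (4 * ν)
    - ((1 - μ) * th + l1) ^ 2 / (4 * Y) - ρ := rfl
    rw [e5]
    linear_combination e1 + e2 + e3 - x * ze * e4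
  rw [key]
  linarith

end Vale.Agent.P254.SP.H674
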