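import Vale.Agent.P254.H721.Env
import Vale.Agent.P254.SP.H674.Q40

/-!
P254, (SP_0) line, P4 (helper674): the two one-variable inequalities of the last range `q ≥ 40`
(mode 0), for all real `g`.
-/

set_option autoImplicit false

namespace Vale.Agent.P254.SP.H674

open Real Set Vale.Agent.P254.H721 Vale.Agent.P254.H721.Cert

/-- `V` as an expression -/
def eVV : Pe := .c 57 100 * eW - .c 93 100 * (eR1 * eR1)

def eA1 : Pe := eVV - .c 25 8 * (eVV * eVV) - .c 1 20 * eR1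

def eYY : Pe := .c 57 100 * eTh - .c 83 100

def ePH : Pe := .c 109 5 * eW - .c 186 5 * (eR1 * eR1) - .c 2 1 * eR1 - .c 125 1 * (eVV * eVV)
  - .c 1000 876 * (eYY * eYY) - .c 1 12 * (eL * eL) + .c 43 100 * (.x * eTh) - .c 12 25 * .x
  - .c 1486 1000

/-- the function `A1` at `g` -/
noncomputable def fA1 (g : ℝ) : ℝ := A1 (43 / 100) (1 / 2) (2 / 25) 5 (wf g) (wf g + r1 g ^ 2) (r1 g)

/-- the function `PH` at `g`, `q = 40` -/
noncomputable def fPH (g : ℝ) : ℝ :=
  PH (43 / 100) (1 / 2) (2 / 25) 5 (219 / 1000) (-83 / 100) (-48 / 100) (2485 / 1000) 12 (1 / 1000)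
    40 g (wf g) (th g) (wf g + r1 g ^ 2) (r1 g) (L g)

theorem fA1_eq (g : ℝ) : fA1 g = (57 / 100 * wf g - 93 / 100 * (r1 g * r1 g))
    - 25 / 8 * ((57 / 100 * wf g - 93 / 100 * (r1 g * r1 g))
      * (57 / 100 * wf g - 93 / 100 * (r1 g * r1 g))) - 1 / 20 * r1 g := by
  unfold fA1 A1 VV
  ring

theorem fPH_eq (g : ℝ) : fPH g = 109 / 5 * wf g - 186 / 5 * (r1 g * r1 g) - 2 * r1 g
    - 125 * ((57 / 100 * wf g - 93 / 100 * (r1 g * r1 g))
      * (57 / 100 * wf g - 93 / 100 * (r1 g * r1 g)))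
    - 1000 / 876 * ((57 / 100 * th g - 83 / 100) * (57 / 100 * th g - 83 / 100))
    - 1 / 12 * (L g * L g) + 43 / 100 * (g * th g) - 12 / 25 * g - 1486 / 1000 := by
  unfold fPH PH VV
  ring

theorem fA1_mid {g : ℝ} (h1 : -5 ≤ g) (h2 : g ≤ 9) : 0 ≤ fA1 g := by
  have h := cert2 (e := eA1) envOK_nil 64 [(4, 56), (8, 30), (4, 85), (2, 46)]
    (by decide) (by decide +kernel) (x := g) (by norm_num; linarith) (by norm_num [tot]; linarith)
  simp only [eA1, eVV, ev_sub, ev_add, ev_mul, ev_c, ev_eR1, ev_eW] at h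
  rw [fA1_eq]
  push_cast at h
  linarith

theorem fPH_mid {g : ℝ} (h1 : -6 ≤ g) (h2 : g ≤ 9) : 0 ≤ fPH g := by
  have h := cert2 (e := ePH) envOK_nil 0 [(1, 2), (2, 3), (4, 238)]
    (by decide) (by decide +kernel) (x := g) (by norm_num; linarith) (by norm_num [tot]; linarith)
  simp only [ePH, eYY, eVV, ev_sub, ev_add, ev_mul, ev_c, ev_eR1, ev_eW, ev_eTh, ev_eL, ev_x] at h
  rw [fPH_eq]
  push_cast at h
  linarith

/-! ### left tails -/

theorem r1_le_wf (g : ℝ) : r1 g ≤ wf g := by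
  have := mul_pos (r_pos g) (r2_pos g)
  unfold wf
  linarith

theorem VV_left {g : ℝ} (hg : g ≤ -5) :
    53 / 100 * r1 g ≤ 57 / 100 * wf g - 93 / 100 * (r1 g * r1 g) ∧
      57 / 100 * wf g - 93 / 100 * (r1 g * r1 g) ≤ 57 / 100 * wf g := by
  have h1 := r1_left hg
  have h2 := r1_pos g
  have h3 := r1_le_wf g
  constructor
  · nlinarith
  · nlinarith

theorem fA1_left {g : ℝ} (hg : g ≤ -5) : 0 ≤ fA1 g := by
  rw [fA1_eq]
  obtain ⟨h1, h2⟩ := VV_left hg
  have h3 := wf_left hg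
  have h4 := r1_pos g
  set V := 57 / 100 * wf g - 93 / 100 * (r1 g * r1 g) with hV
  have h5 : V ≤ 57 / 2000 := by linarith
  have h6 : 0 ≤ V := by linarith
  nlinarith

theorem fPH_left {g : ℝ} (hg : g ≤ -6) : 0 ≤ fPH g := by
  rw [fPH_eq]
  have hg5 : g ≤ -5 := by linarith
  obtain ⟨h1, h2⟩ := VV_left hg5
  have h3 := wf_left hg5
  have h4 := r1_pos g
  have h5 := r1_left hg5
  have h6 := r1_le_wf g
  have ht := th_pos g
  have ht2 := th_left hg5
  have hL := L_pos g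
  have hm : 6 ≤ mm g := by
    have := @mm_ge g
    linarith
  have hL2 : L g ≤ 1 / 6 := by
    have := L_mul_mm g
    have hv := vv_pos g
    nlinarith
  have hr := r_mul_mm_lt g
  have hrp := r_pos g
  have hmm := @mm_ge g
  have h7 : r g * (-g) ≤ 1 := by nlinarith
  have h8 : -(27 / 26) ≤ g * th g := by
    unfold th
    have h9 : 0 ≤ r g * (-g) := mul_nonneg hrp.le (by linarith)
    nlinarith
  set V := 57 / 100 * wf g - 93 / 100 * (r1 g * r1 g) with hV
  have h10 : V ≤ 57 / 2000 := by linarith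
  have h11 : 0 ≤ V := by linarith
  have h12 : V * V ≤ 57 / 2000 * (57 / 100 * wf g) := by nlinarith
  have h13 : r1 g * r1 g ≤ 1 / 26 * r1 g := by nlinarith
  have h14 : (57 / 100 * th g - 83 / 100) * (57 / 100 * th g - 83 / 100) ≤ 83 / 100 * (83 / 100) := by
    nlinarith
  have h15 : L g * L g ≤ 1 / 36 := by nlinarith
  nlinarith

/-! ### right tails -/

theorem VV_right {g : ℝ} (hg : 9 ≤ g) :
    405 / 10000 ≤ 57 / 100 * wf g - 93 / 100 * (r1 g * r1 g) ∧
      57 / 100 * wf g - 93 / 100 * (r1 g * r1 g) ≤ 723 / 10000 := by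
  have h1 := r1_right hg
  have h2 := r1_lt g
  have h3 := wf_right_ge hg
  have h4 := wf_right_le hg
  constructor
  · nlinarith
  · nlinarith

theorem fA1_right {g : ℝ} (hg : 9 ≤ g) : 0 ≤ fA1 g := by
  rw [fA1_eq]
  obtain ⟨h1, h2⟩ := VV_right hg
  have h4 := r1_lt g
  set V := 57 / 100 * wf g - 93 / 100 * (r1 g * r1 g) with hV
  nlinarith [mul_nonneg (sub_nonneg.2 h1) (sub_nonneg.2 h2)]

theorem fPH_right {g : ℝ} (hg : 9 ≤ g) : 0 ≤ fPH g := by
  rw [fPH_eq]
  obtain ⟨v1, v2⟩ := VV_right hg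
  have h1 := r1_right hg
  have h2 := r1_lt g
  have h3 := wf_right_ge hg
  have t1 := th_right_le hg
  have t2 := th_right_ge hg
  have hm : mm g ≤ 1 / 9 := by
    have e1 := L_mul_mm g
    have hv := vv_pos g
    have hL := gt_self g
    have hmp := mm_pos g
    nlinarith
  have hL : L g ≤ 9 + 1 / 9 + (g - 9) := by
    have := mm_eq g
    linarith
  have hLp := L_pos g
  obtain ⟨u, hu⟩ : ∃ u, u = g - 9 := ⟨_, rfl⟩
  have hu0 : 0 ≤ u := by linarith
  have hg' : g = 9 + u := by linarith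
  set V := 57 / 100 * wf g - 93 / 100 * (r1 g * r1 g) with hV
  set T := th g with hT
  rw [← hu] at t1 t2 hL
  have a1 : V * V ≤ 723 / 10000 * (723 / 10000) := by nlinarith
  have a2 : L g * L g ≤ (82 / 9 + u) * (82 / 9 + u) := by
    have : L g ≤ 82 / 9 + u := by linarith
    nlinarith
  have a3 : r1 g * r1 g ≤ 1 / 4 := by nlinarith
  obtain ⟨d, hd⟩ : ∃ d, d = 7187 / 1000 + 3 / 4 * u - T := ⟨_, rfl⟩
  have hd0 : 0 ≤ d := by linarith
  have hd1 : d ≤ 105 / 1000 + 42 / 1000 * u := by linarith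
  have hT' : T = 7187 / 1000 + 3 / 4 * u - d := by linarith
  have a4 : 15 + 5 / 2 * u + 11 / 100 * u ^ 2 ≤ 43 / 100 * (g * T)
      - 1000 / 876 * ((57 / 100 * T - 83 / 100) * (57 / 100 * T - 83 / 100)) := by
    rw [hT', hg']
    nlinarith [mul_nonneg hd0 hu0, mul_nonneg hd0 (sub_nonneg.2 hd1)]
  nlinarith

theorem fA1_nonneg (g : ℝ) : 0 ≤ fA1 g := by
  rcases le_total g (-5) with h | h
  · exact fA1_left h
  · rcases le_total g 9 with h2 | h2
    · exact fA1_mid h h2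
    · exact fA1_right h2

theorem fPH_nonneg (g : ℝ) : 0 ≤ fPH g := by
  rcases le_total g (-6) with h | h
  · exact fPH_left h
  · rcases le_total g 9 with h2 | h2
    · exact fPH_mid h h2
    · exact fPH_right h2

end Vale.Agent.P254.SP.H674
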